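import Vale.Agent.P327.Rec1

/-!
Use principle.
-/

namespace Vale.Agent.P327

open Nat.Partrec (Code)
open Encodable

theorem rp_getElem? (B : Rl) (l i : ℕ) : (rp B l).reverse[i]? = if i < l then some (B i) else none := by
  induction l with
  | zero => simp [rp]
  | succ l ih =>
    simp only [rp, List.reverse_cons]
    by_cases h : i < l
    · rw [List.getElem?_append_left (by simpa [rp_length] using h), ih, if_pos h, if_pos (by omega)]
    · rw [List.getElem?_append_right (by simpa [rp_length] using h)]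
      simp only [List.length_reverse, rp_length]
      by_cases h2 : i = l
      · subst h2; simp
      · rw [if_neg (by omega)]
        have : i - l ≠ 0 := by omega
        obtain ⟨k, hk⟩ := Nat.exists_eq_succ_of_ne_zero this
        rw [hk]; simp

/-- uniform approximation of a number function by finite initial segments -/
def Appr (B : Rl) (f : ℕ →. ℕ) (g : List Bool → ℕ →. ℕ) : Prop :=
  (∀ l l', l ≤ l' → ∀ n v, v ∈ g (rp B l) n → v ∈ g (rp B l') n) ∧
  (∀ n v, v ∈ f n ↔ ∃ l, v ∈ g (rp B l) n)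

theorem appr_tot {B : Rl} {f : ℕ → ℕ} (hf : Computable f) :
    ∃ g : List Bool → ℕ →. ℕ, Partrec₂ g ∧ Appr B (fun n => Part.some (f n)) g := by
  refine ⟨fun _ n => Part.some (f n), (hf.comp Computable.snd).partrec, ?_, ?_⟩
  · intro l l' _ n v h; exact h
  · intro n v
    exact ⟨fun h => ⟨0, h⟩, fun ⟨_, h⟩ => h⟩

theorem appr_ora {B : Rl} :
    ∃ g : List Bool → ℕ →. ℕ, Partrec₂ g ∧ Appr B (ora B) g := by
  refine ⟨fun σ n => (((σ.reverse[n]?).map Bool.toNat : Option ℕ) : Part ℕ), ?_, ?_, ?_⟩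
  · have h1 : Computable (fun p : List Bool × ℕ => (p.1.reverse[p.2]?).map Bool.toNat) := by
      have h2 : Primrec (fun p : List Bool × ℕ => p.1.reverse[p.2]?) :=
        Primrec.list_getElem?.comp (Primrec.list_reverse.comp Primrec.fst) Primrec.snd
      have h3 : Primrec Bool.toNat := Primrec.dom_finite _
      exact (Primrec.option_map h2 (h3.comp Primrec.snd).to₂).to_comp
    exact h1.ofOption
  · intro l l' hll n v h
    simp only [rp_getElem?, Part.mem_ofOption] at h ⊢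
    by_cases hn : n < l
    · rw [if_pos hn] at h; rwa [if_pos (by omega)]
    · rw [if_neg hn] at h; simp at h
  · intro n v
    simp only [rp_getElem?, Part.mem_ofOption, ora, Part.mem_some_iff]
    constructor
    · intro h; exact ⟨n + 1, by simp [h]⟩
    · rintro ⟨l, h⟩
      by_cases hn : n < l
      · rw [if_pos hn] at h; simpa [eq_comm] using h
      · rw [if_neg hn] at h; simp at h

theorem appr_pair {B : Rl} {f h : ℕ →. ℕ}
    (ihf : ∃ g : List Bool → ℕ →. ℕ, Partrec₂ g ∧ Appr B f g)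
    (ihh : ∃ g : List Bool → ℕ →. ℕ, Partrec₂ g ∧ Appr B h g) :
    ∃ g : List Bool → ℕ →. ℕ, Partrec₂ g ∧ Appr B (fun n => (Nat.pair <$> f n <*> h n)) g := by
  obtain ⟨g1, p1, m1, e1⟩ := ihf
  obtain ⟨g2, p2, m2, e2⟩ := ihh
  refine ⟨fun σ n => (g1 σ n).bind fun a => (g2 σ n).map fun b => Nat.pair a b, ?_, ?_, ?_⟩
  · refine Partrec.bind p1 ?_
    refine Partrec.map (p2.comp (Computable.fst.comp Computable.fst)
      (Computable.snd.comp Computable.fst)) ?_
    exact (Primrec₂.natPair.to_comp.comp (Computable.snd.comp Computable.fst) Computable.snd)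
  · intro l l' hll n v h
    obtain ⟨a, ha, hv⟩ := Part.mem_bind_iff.1 h
    obtain ⟨b, hb, rfl⟩ := (Part.mem_map_iff _).1 hv
    exact Part.mem_bind_iff.2 ⟨a, m1 l l' hll _ _ ha,
      (Part.mem_map_iff _).2 ⟨b, m2 l l' hll _ _ hb, rfl⟩⟩
  · intro n v
    constructor
    · intro h
      simp only [Seq.seq, Part.map_eq_map, Part.mem_bind_iff, Part.mem_map_iff] at h
      obtain ⟨a, ⟨x, hx, rfl⟩, y, hy, rfl⟩ := h
      obtain ⟨l1, h1⟩ := (e1 _ _).1 hx
      obtain ⟨l2, h2⟩ := (e2 _ _).1 hy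
      exact ⟨max l1 l2, Part.mem_bind_iff.2 ⟨x, m1 _ _ (le_max_left _ _) _ _ h1,
        (Part.mem_map_iff _).2 ⟨y, m2 _ _ (le_max_right _ _) _ _ h2, rfl⟩⟩⟩
    · rintro ⟨l, h⟩
      obtain ⟨a, ha, hv⟩ := Part.mem_bind_iff.1 h
      obtain ⟨b, hb, rfl⟩ := (Part.mem_map_iff _).1 hv
      simp only [Seq.seq, Part.map_eq_map, Part.mem_bind_iff, Part.mem_map_iff]
      exact ⟨_, ⟨a, (e1 _ _).2 ⟨l, ha⟩, rfl⟩, b, (e2 _ _).2 ⟨l, hb⟩, rfl⟩

theorem appr_comp {B : Rl} {f h : ℕ →. ℕ}
    (ihf : ∃ g : List Bool → ℕ →. ℕ, Partrec₂ g ∧ Appr B f g)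
    (ihh : ∃ g : List Bool → ℕ →. ℕ, Partrec₂ g ∧ Appr B h g) :
    ∃ g : List Bool → ℕ →. ℕ, Partrec₂ g ∧ Appr B (fun n => h n >>= f) g := by
  obtain ⟨g1, p1, m1, e1⟩ := ihf
  obtain ⟨g2, p2, m2, e2⟩ := ihh
  refine ⟨fun σ n => (g2 σ n).bind fun a => g1 σ a, ?_, ?_, ?_⟩
  · refine Partrec.bind p2 ?_
    exact p1.comp (Computable.fst.comp Computable.fst) Computable.snd
  · intro l l' hll n v h
    obtain ⟨a, ha, hv⟩ := Part.mem_bind_iff.1 h
    exact Part.mem_bind_iff.2 ⟨a, m2 l l' hll _ _ ha, m1 l l' hll _ _ hv⟩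
  · intro n v
    constructor
    · intro h
      obtain ⟨a, ha, hv⟩ := Part.mem_bind_iff.1 h
      obtain ⟨l1, h1⟩ := (e2 _ _).1 ha
      obtain ⟨l2, h2⟩ := (e1 _ _).1 hv
      exact ⟨max l1 l2, Part.mem_bind_iff.2
        ⟨a, m2 _ _ (le_max_left _ _) _ _ h1, m1 _ _ (le_max_right _ _) _ _ h2⟩⟩
    · rintro ⟨l, h⟩
      obtain ⟨a, ha, hv⟩ := Part.mem_bind_iff.1 h
      exact Part.mem_bind_iff.2 ⟨a, (e2 _ _).2 ⟨l, ha⟩, (e1 _ _).2 ⟨l, hv⟩⟩

/-- iterate of a pair of approximations -/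
def precPart (g1 g2 : ℕ →. ℕ) (a : ℕ) : ℕ → Part ℕ
  | 0 => g1 a
  | y + 1 => (precPart g1 g2 a y).bind fun i => g2 (Nat.pair a (Nat.pair y i))

theorem precPart_eq (g1 g2 : ℕ →. ℕ) (a n : ℕ) :
    (Nat.rec (g1 a) (fun y IH => do
      let i ← IH
      g2 (Nat.pair a (Nat.pair y i))) n : Part ℕ) = precPart g1 g2 a n := by
  induction n with
  | zero => rfl
  | succ n ih => simp only [precPart, ← ih]; rfl

theorem appr_prec {B : Rl} {f h : ℕ →. ℕ}
    (ihf : ∃ g : List Bool → ℕ →. ℕ, Partrec₂ g ∧ Appr B f g)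
    (ihh : ∃ g : List Bool → ℕ →. ℕ, Partrec₂ g ∧ Appr B h g) :
    ∃ g : List Bool → ℕ →. ℕ, Partrec₂ g ∧
      Appr B (fun p => precPart f h p.unpair.1 p.unpair.2) g := by
  obtain ⟨g1, p1, m1, e1⟩ := ihf
  obtain ⟨g2, p2, m2, e2⟩ := ihh
  have hm : ∀ l l', l ≤ l' → ∀ a n v, v ∈ precPart (g1 (rp B l)) (g2 (rp B l)) a n →
      v ∈ precPart (g1 (rp B l')) (g2 (rp B l')) a n := by
    intro l l' hll a n
    induction n with
    | zero => intro v hv; exact m1 l l' hll _ _ hv
    | succ n ih =>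
      intro v hv
      obtain ⟨i, hi, hv⟩ := Part.mem_bind_iff.1 hv
      exact Part.mem_bind_iff.2 ⟨i, ih _ hi, m2 l l' hll _ _ hv⟩
  have he : ∀ a n v, v ∈ precPart f h a n ↔ ∃ l, v ∈ precPart (g1 (rp B l)) (g2 (rp B l)) a n := by
    intro a n
    induction n with
    | zero => intro v; exact e1 _ _
    | succ n ih =>
      intro v
      constructor
      · intro hv
        obtain ⟨i, hi, hv⟩ := Part.mem_bind_iff.1 hv
        obtain ⟨l1, h1⟩ := (ih _).1 hi
        obtain ⟨l2, h2⟩ := (e2 _ _).1 hv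
        exact ⟨max l1 l2, Part.mem_bind_iff.2
          ⟨i, hm _ _ (le_max_left _ _) _ _ _ h1, m2 _ _ (le_max_right _ _) _ _ h2⟩⟩
      · rintro ⟨l, hv⟩
        obtain ⟨i, hi, hv⟩ := Part.mem_bind_iff.1 hv
        exact Part.mem_bind_iff.2 ⟨i, (ih _).2 ⟨l, hi⟩, (e2 _ _).2 ⟨l, hv⟩⟩
  refine ⟨fun σ p => precPart (g1 σ) (g2 σ) p.unpair.1 p.unpair.2, ?_, ?_, ?_⟩
  · have hu1 : Computable (fun p : List Bool × ℕ => p.2.unpair.1) :=
      Computable.fst.comp (Computable.unpair.comp Computable.snd)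
    have hu2 : Computable (fun p : List Bool × ℕ => p.2.unpair.2) :=
      Computable.snd.comp (Computable.unpair.comp Computable.snd)
    have k1 : Computable (fun q : (List Bool × ℕ) × ℕ × ℕ => q.1.1) :=
      Computable.fst.comp Computable.fst
    have k2 : Computable (fun q : (List Bool × ℕ) × ℕ × ℕ =>
        Nat.pair q.1.2.unpair.1 (Nat.pair q.2.1 q.2.2)) :=
      Primrec₂.natPair.to_comp.comp (hu1.comp Computable.fst)
        (Primrec₂.natPair.to_comp.comp (Computable.fst.comp Computable.snd)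
          (Computable.snd.comp Computable.snd))
    have := Partrec.nat_rec hu2 (p1.comp Computable.fst hu1)
      (h := fun (p : List Bool × ℕ) (q : ℕ × ℕ) =>
        g2 p.1 (Nat.pair p.2.unpair.1 (Nat.pair q.1 q.2))) (p2.comp k1 k2)
    refine this.of_eq (fun p => ?_)
    exact precPart_eq (g1 p.1) (g2 p.1) p.2.unpair.1 p.2.unpair.2
  · intro l l' hll n v hv
    exact hm l l' hll _ _ _ hv
  · intro n v
    exact he _ _ _

/-- search for a zero -/
def rf0 (p : ℕ → Part ℕ) : Part ℕ := Nat.rfind fun n => (p n).map fun m => decide (m = 0)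

theorem mem_rf0 (p : ℕ → Part ℕ) (v : ℕ) :
    v ∈ rf0 p ↔ ∀ m, m ≤ v → ∃ x, x ∈ p m ∧ (x = 0 ↔ m = v) := by
  have h0 : v ∈ rf0 p ↔ (true ∈ (p v).map fun m => decide (m = 0)) ∧
      ∀ {m : ℕ}, m < v → false ∈ (p m).map fun m => decide (m = 0) := Nat.mem_rfind
  rw [h0]
  simp only [Part.mem_map_iff]
  constructor
  · rintro ⟨⟨x, hx, hx2⟩, h2⟩ m hm
    rcases Nat.lt_or_eq_of_le hm with h | h
    · obtain ⟨y, hy, hy2⟩ := h2 h
      refine ⟨y, hy, ?_⟩
      have : m ≠ v := by omega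
      simpa [this] using hy2
    · subst h
      refine ⟨x, hx, ?_⟩
      simpa using hx2
  · intro h
    refine ⟨?_, ?_⟩
    · obtain ⟨x, hx, hx2⟩ := h v le_rfl
      exact ⟨x, hx, by simpa using hx2⟩
    · intro m hm
      obtain ⟨x, hx, hx2⟩ := h m (le_of_lt hm)
      refine ⟨x, hx, ?_⟩
      have : m ≠ v := by omega
      simpa [this] using hx2

theorem appr_rfind {B : Rl} {f : ℕ →. ℕ}
    (ihf : ∃ g : List Bool → ℕ →. ℕ, Partrec₂ g ∧ Appr B f g) :
    ∃ g : List Bool → ℕ →. ℕ, Partrec₂ g ∧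
      Appr B (fun a => rf0 fun n => f (Nat.pair a n)) g := by
  obtain ⟨g1, p1, m1, e1⟩ := ihf
  refine ⟨fun σ a => rf0 fun n => g1 σ (Nat.pair a n), ?_, ?_, ?_⟩
  · have k1 : Computable (fun q : (List Bool × ℕ) × ℕ => q.1.1) :=
      Computable.fst.comp Computable.fst
    have k2 : Computable (fun q : (List Bool × ℕ) × ℕ => Nat.pair q.1.2 q.2) :=
      Primrec₂.natPair.to_comp.comp (Computable.snd.comp Computable.fst) Computable.snd
    have k3 : Computable (fun m : ℕ => decide (m = 0)) :=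
      (Primrec.eq.comp Primrec.id (Primrec.const 0)).decide.to_comp
    exact Partrec.rfind (p := fun (q : List Bool × ℕ) (n : ℕ) =>
      (g1 q.1 (Nat.pair q.2 n)).map fun m => decide (m = 0))
      ((p1.comp k1 k2).map (k3.comp Computable.snd).to₂)
  · intro l l' hll n v hv
    have hv' := (mem_rf0 _ _).1 hv
    refine (mem_rf0 _ _).2 ?_
    intro m hm
    obtain ⟨x, hx, hx2⟩ := hv' m hm
    exact ⟨x, m1 l l' hll _ _ hx, hx2⟩
  · intro n v
    constructor
    · intro hv
      have hv' := (mem_rf0 _ _).1 hv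
      have key2 : ∀ m, m ≤ v + 1 → ∃ L, ∀ i, i < m → ∃ x, x ∈ g1 (rp B L) (Nat.pair n i) ∧
          (x = 0 ↔ i = v) := by
        intro m
        induction m with
        | zero => intro _; exact ⟨0, fun i hi => absurd hi (by omega)⟩
        | succ m ih =>
          intro hm
          obtain ⟨L, hL⟩ := ih (by omega)
          obtain ⟨x, hx, hx2⟩ := hv' m (by omega)
          obtain ⟨l, hl⟩ := (e1 _ _).1 hx
          refine ⟨max L l, fun i hi => ?_⟩
          rcases Nat.lt_or_eq_of_le (Nat.lt_succ_iff.1 hi) with h | h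
          · obtain ⟨y, hy, hy2⟩ := hL i h
            exact ⟨y, m1 _ _ (le_max_left _ _) _ _ hy, hy2⟩
          · subst h
            exact ⟨x, m1 _ _ (le_max_right _ _) _ _ hl, hx2⟩
      obtain ⟨L, hL⟩ := key2 (v + 1) le_rfl
      refine ⟨L, (mem_rf0 _ _).2 ?_⟩
      intro m hm
      exact hL m (by omega)
    · rintro ⟨l, hv⟩
      have hv' := (mem_rf0 _ _).1 hv
      refine (mem_rf0 _ _).2 ?_
      intro m hm
      obtain ⟨x, hx, hx2⟩ := hv' m hm
      exact ⟨x, (e1 _ _).2 ⟨l, hx⟩, hx2⟩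

theorem exists_appr {B : Rl} {f : ℕ →. ℕ} (hf : Nat.RecursiveIn {ora B} f) :
    ∃ g : List Bool → ℕ →. ℕ, Partrec₂ g ∧ Appr B f g := by
  induction hf with
  | zero => exact appr_tot (Computable.const 0)
  | succ => exact appr_tot Computable.succ
  | left => exact appr_tot (Computable.fst.comp Computable.unpair)
  | right => exact appr_tot (Computable.snd.comp Computable.unpair)
  | oracle g hg =>
    rw [Set.mem_singleton_iff] at hg
    subst hg
    exact appr_ora
  | pair _ _ ihf ihh => exact appr_pair ihf ihh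
  | comp _ _ ihf ihh => exact appr_comp ihf ihh
  | @prec f h _ _ ihf ihh =>
    obtain ⟨g, h1, h2⟩ := appr_prec ihf ihh
    refine ⟨g, h1, ?_⟩
    have : (fun p : ℕ => (precPart f h p.unpair.1 p.unpair.2)) = (fun p =>
        let (a, n) := Nat.unpair p
        n.rec (f a) fun y IH => do
          let i ← IH
          h (Nat.pair a (Nat.pair y i)) : ℕ →. ℕ) := by
      funext p
      exact (precPart_eq f h p.unpair.1 p.unpair.2).symm
    rw [← this]
    exact h2
  | rfind _ ihf => exact appr_rfind ihf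

/-- use principle -/
theorem exists_phi {A B : Rl} (h : TR A B) : ∃ c, Phi c B A := by
  obtain ⟨g, hg, hm, he⟩ := exists_appr h
  obtain ⟨c, hc⟩ := Code.exists_code.1 hg
  refine ⟨c, fun n v => ?_⟩
  have h1 : ∀ l v, v ∈ g (rp B l) n ↔ ∃ k, Code.evaln k c (Nat.pair (encode (rp B l)) n) = some v := by
    intro l v
    have h2 : Code.eval c (Nat.pair (encode (rp B l)) n) = g (rp B l) n := by
      rw [hc]
      have : Nat.pair (encode (rp B l)) n = encode ((rp B l, n) : List Bool × ℕ) := rfl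
      rw [this]
      simp only [encodek, Part.coe_some, Part.bind_some]
      exact Part.map_id' (fun _ => rfl) _
    rw [← h2, Code.evaln_complete]
    rfl
  have h3 := he n v.toNat
  simp only [h1] at h3
  rw [← h3]
  simp only [ora, Part.mem_some_iff]
  constructor
  · intro h; rw [h]
  · intro h
    cases hA : A n <;> cases v <;> simp_all

end Vale.Agent.P327
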