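import Mathlib
import Vale.Agent.P327.Use

/-!
P327, module Cat: category and measurability.
-/

namespace Vale.Agent.P327

open Nat.Partrec (Code)
open Filter Topology Set

/-! ### General category lemmas -/

/-- Kuratowski–Ulam, easy direction -/
theorem ku {X Y : Type*} [TopologicalSpace X] [TopologicalSpace Y] [SecondCountableTopology Y]
    {p : X → Y → Prop} (h : ∀ᶠ z : X × Y in residual (X × Y), p z.1 z.2) :
    ∀ᶠ x in residual X, ∀ᶠ y in residual Y, p x y := by
  obtain ⟨S, hSo, hSd, hSc, hSs⟩ := mem_residual_iff.mp h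
  -- for each dense open set the sections are dense for residually many x
  have key : ∀ W ∈ S, ∀ᶠ x in residual X, Dense {y | (x, y) ∈ W} := by
    intro W hW
    let 𝓑 := TopologicalSpace.countableBasis Y
    have hB : TopologicalSpace.IsTopologicalBasis 𝓑 :=
      TopologicalSpace.isBasis_countableBasis Y
    have hBc : 𝓑.Countable := TopologicalSpace.countable_countableBasis Y
    have h1 : ∀ B ∈ 𝓑, ∀ᶠ x in residual X, ∃ y ∈ B, (x, y) ∈ W := by
      intro B hBB
      have hBo : IsOpen B := hB.isOpen hBB
      have hBn : B.Nonempty := by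
        rw [nonempty_iff_ne_empty]
        rintro rfl
        exact TopologicalSpace.empty_notMem_countableBasis Y hBB
      have ho : IsOpen {x | ∃ y ∈ B, (x, y) ∈ W} := by
        have : {x | ∃ y ∈ B, (x, y) ∈ W} = Prod.fst '' (W ∩ univ ×ˢ B) := by
          ext x
          simp only [mem_ofPred_eq, mem_image, mem_inter_iff, mem_prod, mem_univ, true_and,
            Prod.exists, exists_and_right, exists_eq_right]
          exact ⟨fun ⟨y, h1, h2⟩ => ⟨y, h2, h1⟩, fun ⟨y, h1, h2⟩ => ⟨y, h2, h1⟩⟩
        rw [this]
        exact isOpenMap_fst _ ((hSo W hW).inter (isOpen_univ.prod hBo))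
      have hd : Dense {x | ∃ y ∈ B, (x, y) ∈ W} := by
        rw [dense_iff_inter_open]
        intro O hO hOn
        obtain ⟨z, hz1, hz2⟩ := (dense_iff_inter_open.mp (hSd W hW)) (O ×ˢ B) (hO.prod hBo)
          (hOn.prod hBn)
        exact ⟨z.1, hz1.1, z.2, hz1.2, hz2⟩
      exact residual_of_dense_open ho hd
    have h2 : ∀ᶠ x in residual X, ∀ B ∈ 𝓑, ∃ y ∈ B, (x, y) ∈ W :=
      (eventually_countable_ball hBc).mpr h1
    filter_upwards [h2] with x hx
    rw [hB.dense_iff]
    intro B hBB _
    obtain ⟨y, hy1, hy2⟩ := hx B hBB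
    exact ⟨y, hy1, hy2⟩
  have key2 : ∀ᶠ x in residual X, ∀ W ∈ S, Dense {y | (x, y) ∈ W} :=
    (eventually_countable_ball hSc).mpr key
  filter_upwards [key2] with x hx
  have h3 : ∀ᶠ y in residual Y, ∀ W ∈ S, (x, y) ∈ W := by
    refine (eventually_countable_ball hSc).mpr (fun W hW => ?_)
    exact residual_of_dense_open ((hSo W hW).preimage (by fun_prop)) (hx W hW)
  filter_upwards [h3] with y hy
  exact hSs (fun W hW => hy W hW)

/-- pigeonhole for Borel sets -/
theorem pigeon {X ι : Type*} [TopologicalSpace X] [BaireSpace X] [MeasurableSpace X] [BorelSpace X]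
    [Countable ι] (S : ι → Set X) (hS : ∀ i, MeasurableSet (S i)) (O : Set X) (hO : IsOpen O)
    (hne : O.Nonempty) (h : ∀ᶠ x in residual X, x ∈ O → ∃ i, x ∈ S i) :
    ∃ i, ∃ O' ⊆ O, IsOpen O' ∧ O'.Nonempty ∧ ∀ᶠ x in residual X, x ∈ O' → x ∈ S i := by
  choose U hU hSU using fun i => (hS i).residualEq_isOpen
  by_cases hex : ∃ i, (O ∩ U i).Nonempty
  · obtain ⟨i, hi⟩ := hex
    refine ⟨i, O ∩ U i, inter_subset_left, hO.inter (hU i), hi, ?_⟩
    filter_upwards [hSU i] with x hx hxO
    exact hx.mpr hxO.2
  · push Not at hex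
    exfalso
    have h1 : ∀ᶠ x in residual X, ∀ i, (x ∈ S i ↔ x ∈ U i) :=
      eventually_countable_forall.mpr (fun i => by
        filter_upwards [hSU i] with x hx
        exact Eq.to_iff hx)
    have h2 : ∀ᶠ x in residual X, x ∉ O := by
      filter_upwards [h, h1] with x hx hx1 hxO
      obtain ⟨i, hi⟩ := hx hxO
      have : x ∈ O ∩ U i := ⟨hxO, (hx1 i).mp hi⟩
      rw [hex i] at this
      exact this
    obtain ⟨x, hx1, hx2⟩ := (dense_iff_inter_open.mp (dense_of_mem_residual h2)) O hO hne
    exact hx2 hx1

/-- residual sets meet nonempty open sets -/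
theorem exists_of_residual {X : Type*} [TopologicalSpace X] [BaireSpace X] {p : X → Prop}
    (h : ∀ᶠ x in residual X, p x) {O : Set X} (hO : IsOpen O) (hne : O.Nonempty) :
    ∃ x ∈ O, p x := by
  obtain ⟨x, hx1, hx2⟩ := (dense_iff_inter_open.mp (dense_of_mem_residual h)) O hO hne
  exact ⟨x, hx1, hx2⟩

/-- a Borel set which is comeager in no nonempty open set is meager -/
theorem meager_of_not {X : Type*} [TopologicalSpace X] [MeasurableSpace X] [BorelSpace X]
    {S : Set X} (hS : MeasurableSet S)
    (h : ∀ O : Set X, IsOpen O → O.Nonempty → ¬ ∀ᶠ x in residual X, x ∈ O → x ∈ S) :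
    ∀ᶠ x in residual X, x ∉ S := by
  obtain ⟨U, hU, hSU⟩ := hS.residualEq_isOpen
  have hUe : U = ∅ := by
    by_contra hne
    refine h U hU (nonempty_iff_ne_empty.mpr hne) ?_
    filter_upwards [hSU] with x hx hxU
    exact hx.mpr hxU
  filter_upwards [hSU] with x hx hxS
  have : x ∈ U := hx.mp hxS
  rw [hUe] at this
  exact this

/-! ### The functionals -/

theorem Phi_unique {c : Code} {B A A' : Rl} (h : Phi c B A) (h' : Phi c B A') : A = A' := by
  funext n
  exact ((h' n (A n)).mpr ((h n (A n)).mp rfl)).symm

/-- every functional is a Turing reduction -/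
theorem TR_of_phi {c : Code} {B A : Rl} (h : Phi c B A) : TR A B := by
  refine TR_of_search (fun σ m n => (Code.evaln m c (Nat.pair (Encodable.encode σ) n)).bind
    (fun x => if x = 0 then some false else if x = 1 then some true else none)) ?_ ?_
  · have h1 : Primrec (fun p : List Bool × ℕ × ℕ =>
        Code.evaln p.2.1 c (Nat.pair (Encodable.encode p.1) p.2.2)) := by
      have h2 : Primrec (fun p : List Bool × ℕ × ℕ =>
          ((p.2.1, c), Nat.pair (Encodable.encode p.1) p.2.2)) :=
        ((Primrec.fst.comp Primrec.snd).pair (Primrec.const c)).pair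
          (Primrec₂.natPair.comp (Primrec.encode.comp Primrec.fst)
            (Primrec.snd.comp Primrec.snd))
      exact Code.primrec_evaln.comp h2
    refine (Primrec.option_bind h1 ?_).to_comp
    exact (Primrec.ite (Primrec.eq.comp Primrec.snd (Primrec.const 0)) (Primrec.const (some false))
      (Primrec.ite (Primrec.eq.comp Primrec.snd (Primrec.const 1)) (Primrec.const (some true))
        (Primrec.const none))).to₂
  · intro n v
    rw [h n v]
    refine exists_congr (fun l => exists_congr (fun m => ?_))
    cases hv : Code.evaln m c (Nat.pair (Encodable.encode (rp B l)) n) with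
    | none => simp
    | some x =>
      simp only [Option.some.injEq, Option.bind_some]
      cases v
      · by_cases hx : x = 0
        · simp [hx]
        · by_cases hx1 : x = 1 <;> simp [hx, hx1]
      · by_cases hx : x = 0
        · simp [hx]
        · by_cases hx1 : x = 1 <;> simp [hx1, hx]

theorem TR_iff_phi {A B : Rl} : TR A B ↔ ∃ c, Phi c B A :=
  ⟨exists_phi, fun ⟨_, h⟩ => TR_of_phi h⟩

theorem measurableSet_rp (Q : List Bool → Prop) (l : ℕ) : MeasurableSet {B : Rl | Q (rp B l)} := by
  induction l generalizing Q with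
  | zero => simp only [rp]; exact MeasurableSet.const _
  | succ l ih =>
    have h : {B : Rl | Q (rp B (l + 1))} =
        ({B : Rl | B l = true} ∩ {B : Rl | Q (true :: rp B l)}) ∪
        ({B : Rl | B l = false} ∩ {B : Rl | Q (false :: rp B l)}) := by
      ext B
      simp only [rp, mem_ofPred_eq, mem_union, mem_inter_iff]
      cases B l <;> simp
    rw [h]
    have hm : Measurable (fun B : Rl => B l) := measurable_pi_apply l
    have h1 : MeasurableSet {B : Rl | B l = true} := hm (measurableSet_singleton true)
    have h2 : MeasurableSet {B : Rl | B l = false} := hm (measurableSet_singleton false)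
    exact (h1.inter (ih (fun σ => Q (true :: σ)))).union (h2.inter (ih (fun σ => Q (false :: σ))))

theorem measurableSet_halt (c : Code) (n x : ℕ) : MeasurableSet {B : Rl |
    ∃ l k, Code.evaln k c (Nat.pair (Encodable.encode (rp B l)) n) = some x} := by
  simp only [ofPred_exists]
  refine MeasurableSet.iUnion (fun l => MeasurableSet.iUnion (fun k => ?_))
  exact measurableSet_rp (fun σ => Code.evaln k c (Nat.pair (Encodable.encode σ) n) = some x) l

theorem measurableSet_Phi (c : Code) : MeasurableSet {p : Rl × Rl | Phi c p.1 p.2} := by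
  have h : {p : Rl × Rl | Phi c p.1 p.2} = ⋂ n : ℕ, ⋂ v : Bool, {p : Rl × Rl | p.2 n = v ↔
      ∃ l k, Code.evaln k c (Nat.pair (Encodable.encode (rp p.1 l)) n) = some (Bool.toNat v)} := by
    ext p
    simp only [Phi, mem_ofPred_eq, mem_iInter]
  rw [h]
  refine MeasurableSet.iInter (fun n => MeasurableSet.iInter (fun v => ?_))
  have hm : Measurable (fun p : Rl × Rl => p.2 n) := (measurable_pi_apply n).comp measurable_snd
  have h1 : MeasurableSet {p : Rl × Rl | p.2 n = v} := hm (measurableSet_singleton v)
  have h2 : MeasurableSet {p : Rl × Rl | ∃ l k, Code.evaln k c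
      (Nat.pair (Encodable.encode (rp p.1 l)) n) = some (Bool.toNat v)} :=
    measurable_fst (measurableSet_halt c n (Bool.toNat v))
  have h3 : {p : Rl × Rl | p.2 n = v ↔
      ∃ l k, Code.evaln k c (Nat.pair (Encodable.encode (rp p.1 l)) n) = some (Bool.toNat v)} =
      ({p : Rl × Rl | p.2 n = v} ∩ {p : Rl × Rl | ∃ l k, Code.evaln k c
        (Nat.pair (Encodable.encode (rp p.1 l)) n) = some (Bool.toNat v)}) ∪
      ({p : Rl × Rl | p.2 n = v}ᶜ ∩ {p : Rl × Rl | ∃ l k, Code.evaln k c
        (Nat.pair (Encodable.encode (rp p.1 l)) n) = some (Bool.toNat v)}ᶜ) := by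
    ext p
    simp only [mem_ofPred_eq, mem_union, mem_inter_iff, mem_compl_iff]
    exact iff_iff_and_or_not_and_not
  rw [h3]
  exact (h1.inter h2).union (h1.compl.inter h2.compl)

theorem measurableSet_TR : MeasurableSet {p : Rl × Rl | TR p.1 p.2} := by
  have h : {p : Rl × Rl | TR p.1 p.2} = ⋃ c : Code, {p : Rl × Rl | Phi c p.2 p.1} := by
    ext p
    simp only [mem_ofPred_eq, mem_iUnion, TR_iff_phi]
  rw [h]
  refine MeasurableSet.iUnion (fun c => ?_)
  exact measurable_swap (measurableSet_Phi c)

/-- total version of the functional with code `c` -/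
noncomputable def phiTot (c : Code) (B : Rl) : Rl := fun n =>
  open Classical in
  decide (∃ l k, Code.evaln k c (Nat.pair (Encodable.encode (rp B l)) n) = some 1)

theorem phiTot_eq {c : Code} {B A : Rl} (h : Phi c B A) : phiTot c B = A := by
  funext n
  have h1 := h n true
  simp only [Bool.toNat_true] at h1
  simp only [phiTot]
  cases hA : A n
  · rw [hA] at h1
    simpa using h1
  · rw [hA] at h1
    simpa using h1

theorem measurable_phiTot (c : Code) : Measurable (phiTot c) := by
  rw [measurable_pi_iff]
  intro n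
  refine measurable_to_bool ?_
  have : (fun B => phiTot c B n) ⁻¹' {true} = {B : Rl |
      ∃ l k, Code.evaln k c (Nat.pair (Encodable.encode (rp B l)) n) = some 1} := by
    ext B
    simp [phiTot]
  rw [this]
  exact measurableSet_halt c n 1

/-! ### Homeomorphisms -/

theorem continuous_jn : Continuous (fun p : Rl × Rl => jn p.1 p.2) := by
  refine continuous_pi (fun n => ?_)
  simp only [jn]
  cases n.bodd
  · exact (continuous_apply _).comp continuous_fst
  · exact (continuous_apply _).comp continuous_snd

theorem measurable_jn : Measurable (fun p : Rl × Rl => jn p.1 p.2) := continuous_jn.measurable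

/-- the join as a homeomorphism -/
def jnHomeo : Rl × Rl ≃ₜ Rl where
  toFun p := jn p.1 p.2
  invFun C := (fun n => C (Nat.bit false n), fun n => C (Nat.bit true n))
  left_inv p := by
    refine Prod.ext ?_ ?_
    · funext n; simp [jn]
    · funext n; simp [jn]
  right_inv C := by
    funext n
    simp only [jn]
    have h := Nat.bit_bodd_div2 n
    cases hb : n.bodd
    · rw [hb] at h; simp [h]
    · rw [hb] at h; simp [h]
  continuous_toFun := continuous_jn
  continuous_invFun := by fun_prop

@[simp] theorem jnHomeo_apply (p : Rl × Rl) : jnHomeo p = jn p.1 p.2 := rfl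

/-- coding of sequences as a homeomorphism -/
def cdHomeo : (ℕ → Rl) ≃ₜ Rl where
  toFun X := cd X
  invFun Y := fun i j => Y (Nat.pair i j)
  left_inv X := by funext i j; simp [cd]
  right_inv Y := by funext n; simp [cd]
  continuous_toFun := by
    refine continuous_pi (fun n => ?_)
    simp only [cd]
    exact (continuous_apply _).comp (continuous_apply _)
  continuous_invFun := by fun_prop

@[simp] theorem cdHomeo_apply (X : ℕ → Rl) : cdHomeo X = cd X := rfl

theorem continuous_cd : Continuous cd := cdHomeo.continuous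

theorem measurable_cd : Measurable cd := continuous_cd.measurable

/-- putting a real in front of a sequence, as a homeomorphism -/
def csHomeo : Rl × (ℕ → Rl) ≃ₜ (ℕ → Rl) where
  toFun p := cs p.1 p.2
  invFun X := (X 0, fun j => X (j + 1))
  left_inv p := rfl
  right_inv X := by
    funext j
    cases j <;> rfl
  continuous_toFun := by
    refine continuous_pi (fun n => ?_)
    cases n with
    | zero => exact continuous_fst
    | succ n => exact (continuous_apply n).comp continuous_snd
  continuous_invFun := by fun_prop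

@[simp] theorem csHomeo_apply (p : Rl × (ℕ → Rl)) : csHomeo p = cs p.1 p.2 := rfl

theorem continuous_cs : Continuous (fun p : Rl × (ℕ → Rl) => cs p.1 p.2) := csHomeo.continuous

/-- open sets contain cylinders -/
theorem exists_cylinder {O : Set Rl} (hO : IsOpen O) {x : Rl} (hx : x ∈ O) :
    ∃ N, ∀ y : Rl, (∀ i < N, y i = x i) → y ∈ O := by
  obtain ⟨I, u, hu, hsub⟩ := isOpen_pi_iff.mp hO x hx
  obtain ⟨N, hN⟩ := I.exists_nat_subset_range
  refine ⟨N, fun y hy => hsub ?_⟩
  intro i hi
  have : i < N := Finset.mem_range.mp (hN hi)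
  rw [hy i this]
  exact (hu i hi).2

/-- open sets of sequences contain cylinders -/
theorem exists_cylinder_seq {O : Set (ℕ → Rl)} (hO : IsOpen O) {x : ℕ → Rl} (hx : x ∈ O) :
    ∃ N, ∀ y : ℕ → Rl, (∀ i < N, ∀ j < N, y i j = x i j) → y ∈ O := by
  obtain ⟨I, u, hu, hsub⟩ := isOpen_pi_iff.mp hO x hx
  obtain ⟨N, hN⟩ := I.exists_nat_subset_range
  choose! M hM using fun i (hi : i ∈ I) => exists_cylinder (hu i hi).1 (hu i hi).2
  obtain ⟨K, hK⟩ : ∃ K, ∀ i ∈ I, M i ≤ K := ⟨I.sup M, fun i hi => Finset.le_sup hi⟩
  refine ⟨max N K, fun y hy => hsub ?_⟩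
  intro i hi
  have h1 : i < N := Finset.mem_range.mp (hN hi)
  refine hM i hi (y i) (fun j hj => hy i (lt_of_lt_of_le h1 (le_max_left _ _)) j ?_)
  exact lt_of_lt_of_le hj ((hK i hi).trans (le_max_right _ _))

/-- cylinders are open -/
theorem isOpen_cylinder (x : Rl) (N : ℕ) : IsOpen {y : Rl | ∀ i < N, y i = x i} := by
  have : {y : Rl | ∀ i < N, y i = x i} = ⋂ i ∈ Finset.range N, {y : Rl | y i = x i} := by
    ext y; simp
  rw [this]
  refine isOpen_biInter_finset (fun i _ => ?_)
  exact (isOpen_discrete ({x i} : Set Bool)).preimage (continuous_apply i : Continuous (fun y : Rl => y i))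


/-! ### Lemma S and the generic sequence -/

/-- lemma S, from its recursion theoretic core -/
theorem lemS_of_core
    (core : ∀ {c : Code} {A K : Rl} (w : List Bool),
      (∀ τ : List Bool, ∃ V : Rl, (∀ i b, (w ++ τ)[i]? = some b → V i = b) ∧ Phi c (jn A V) K) →
      TR K A)
    {K A : Rl} (h : ¬ TR K A) : ∀ᶠ V in residual Rl, ¬ TR K (jn A V) := by
  have hc : ∀ c : Code, ∀ᶠ V in residual Rl, ¬ Phi c (jn A V) K := by
    intro c
    have hm : Measurable (fun V : Rl => ((jn A V, K) : Rl × Rl)) :=
      (measurable_jn.comp (measurable_const.prodMk measurable_id)).prodMk measurable_const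
    have hS : MeasurableSet {V : Rl | Phi c (jn A V) K} := hm (measurableSet_Phi c)
    refine meager_of_not hS ?_
    intro O hO hne hcon
    apply h
    obtain ⟨x, hx⟩ := hne
    obtain ⟨N, hN⟩ := exists_cylinder hO hx
    refine core (c := c) (List.ofFn (fun i : Fin N => x i)) ?_
    intro τ
    set w := List.ofFn (fun i : Fin N => x i) with hw
    -- the cylinder of `w ++ τ`
    let y : Rl := fun i => (w ++ τ).getD i false
    obtain ⟨V, hV1, hV2⟩ := exists_of_residual hcon (isOpen_cylinder y (w ++ τ).length) ⟨y, fun i _ => rfl⟩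
    have hVO : V ∈ O := by
      refine hN V (fun i hi => ?_)
      have hil : i < w.length := by simp [hw, hi]
      have hil' : i < (w ++ τ).length := by
        rw [List.length_append]; omega
      rw [hV1 i hil']
      simp only [y]
      rw [List.getD_eq_getElem _ _ hil', List.getElem_append_left hil]
      simp [hw]
    refine ⟨V, ?_, hV2 hVO⟩
    intro i b hib
    obtain ⟨hi, hb⟩ := List.getElem?_eq_some_iff.mp hib
    rw [hV1 i hi]
    simp only [y]
    rw [List.getD_eq_getElem _ _ hi, hb]
  have hall : ∀ᶠ V in residual Rl, ∀ c : Code, ¬ Phi c (jn A V) K :=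
    eventually_countable_forall.mpr hc
  filter_upwards [hall] with V hV hTR
  obtain ⟨c, hc⟩ := exists_phi hTR
  exact hV c hc

/-- singletons are meager in `Rl` -/
theorem residual_ne (a : Rl) : ∀ᶠ x in residual Rl, x ≠ a := by
  refine residual_of_dense_open (s := {x : Rl | x ≠ a}) isOpen_ne ?_
  rw [dense_iff_inter_open]
  intro O hO ⟨x, hx⟩
  obtain ⟨N, hN⟩ := exists_cylinder hO hx
  refine ⟨fun i => if i < N then x i else !(a i), hN _ (fun i hi => by simp [hi]), ?_⟩
  intro hcon
  have := congrFun hcon N
  simp at this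

/-- the reals below a given one form a meager set -/
theorem residual_not_TR (B : Rl) : ∀ᶠ x in residual Rl, ¬ TR x B := by
  have hc : ∀ c : Code, ∀ᶠ x in residual Rl, ¬ Phi c B x := by
    intro c
    by_cases hex : ∃ a, Phi c B a
    · obtain ⟨a, ha⟩ := hex
      filter_upwards [residual_ne a] with x hx hcx
      exact hx (Phi_unique hcx ha)
    · push Not at hex
      exact Eventually.of_forall hex
  filter_upwards [eventually_countable_forall.mpr hc] with x hx hTR
  obtain ⟨c, hc⟩ := exists_phi hTR
  exact hx c hc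

/-- residual statements transfer along homeomorphisms -/
theorem residual_homeo {X Y : Type*} [TopologicalSpace X] [TopologicalSpace Y] (e : X ≃ₜ Y)
    {p : Y → Prop} (h : ∀ᶠ y in residual Y, p y) : ∀ᶠ x in residual X, p (e x) := by
  obtain ⟨S, hSo, hSd, hSc, hSs⟩ := mem_residual_iff.mp h
  have key : ∀ᶠ x in residual X, ∀ W ∈ S, e x ∈ W := by
    refine (eventually_countable_ball hSc).mpr (fun W hW => ?_)
    exact residual_of_dense_open ((hSo W hW).preimage e.continuous)
      ((hSd W hW).preimage e.isOpenMap)
  filter_upwards [key] with x hx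
  exact hSs (fun W hW => hx W hW)

/-- generic sequence -/
theorem exists_indep : ∃ G : ℕ → Rl, ∀ i, ¬ TR (G i) (cd (del i G)) := by
  have hi : ∀ i, ∀ᶠ G in residual (ℕ → Rl), ¬ TR (G i) (cd (del i G)) := by
    intro i
    have hdel : Continuous (fun G : ℕ → Rl => del i G) := by
      refine continuous_pi (fun j => ?_)
      simp only [del]
      by_cases hj : j = i
      · subst hj
        simp only [Function.update_self]
        exact continuous_const
      · simp only [Function.update_of_ne hj]
        exact continuous_apply j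
    have hm : Measurable (fun G : ℕ → Rl => ((G i, cd (del i G)) : Rl × Rl)) :=
      ((measurable_pi_apply i).prodMk (measurable_cd.comp hdel.measurable))
    have hS : MeasurableSet {G : ℕ → Rl | TR (G i) (cd (del i G))} := hm measurableSet_TR
    refine meager_of_not hS ?_
    intro O hO hne hcon
    -- separate the coordinate `i` from the others
    let e : ({j : ℕ // j ≠ i} → Rl) × Rl ≃ₜ (ℕ → Rl) :=
      ((Homeomorph.piSplitAt i (fun _ : ℕ => Rl)).trans (Homeomorph.prodComm _ _)).symm
    have he : ∀ (z : {j : ℕ // j ≠ i} → Rl) (x : Rl), e (z, x) i = x := by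
      intro z x
      simp [e]
    have he2 : ∀ (z : {j : ℕ // j ≠ i} → Rl) (x x' : Rl), del i (e (z, x)) = del i (e (z, x')) := by
      intro z x x'
      funext j
      simp only [del]
      by_cases hj : j = i
      · subst hj; simp
      · simp only [Function.update_of_ne hj]
        simp [e, hj]
    have h1 := ku (p := fun z x => e (z, x) ∈ O → e (z, x) ∈ {G : ℕ → Rl | TR (G i) (cd (del i G))})
      (residual_homeo e hcon)
    have hO' : IsOpen (e ⁻¹' O) := hO.preimage e.continuous
    obtain ⟨G, hG⟩ := hne
    have hp : IsOpen (Prod.fst '' (e ⁻¹' O)) := isOpenMap_fst _ hO'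
    obtain ⟨z, ⟨⟨z', x⟩, hzx, rfl⟩, hz⟩ := exists_of_residual h1 hp ⟨_, e.symm G, by simpa using hG, rfl⟩
    simp only at hz
    have hO2 : IsOpen {x : Rl | e (z', x) ∈ O} := hO.preimage (by fun_prop)
    have h2 : ∀ᶠ y in residual Rl, ¬ TR y (cd (del i (e (z', x)))) := residual_not_TR _
    obtain ⟨y, hy, hy1, hy2⟩ := exists_of_residual (hz.and h2) hO2 ⟨x, hzx⟩
    apply hy2
    have h3 := hy1 hy
    simp only [mem_ofPred_eq, he] at h3
    rwa [he2 z' y x] at h3
  have hall : ∀ᶠ G in residual (ℕ → Rl), ∀ i, ¬ TR (G i) (cd (del i G)) :=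
    eventually_countable_forall.mpr hi
  obtain ⟨G, _, hG⟩ := exists_of_residual hall isOpen_univ ⟨fun _ _ => false, mem_univ _⟩
  exact ⟨G, hG⟩

end Vale.Agent.P327
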