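import Vale.Agent.P327.Rec3
import Vale.Agent.P327.Cat

/-!
Rigidity of the Turing degrees: collected interface for the main argument.
-/

namespace Vale.Agent.P327

open Nat.Partrec (Code)
open Filter Topology

/-- adding a generic real computes nothing new -/
theorem lemS {K A : Rl} (h : ¬ TR K A) : ∀ᶠ V in residual Rl, ¬ TR K (jn A V) :=
  lemS_of_core (fun w hw => lemS_core w hw) h

theorem cylinder {O : Set Rl} (hO : IsOpen O) {x : Rl} (hx : x ∈ O) :
    ∃ N, ∀ y : Rl, (∀ i, i < N → y i = x i) → y ∈ O := exists_cylinder hO hx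

/-- a pair of degree maps, monotone in both directions and mutually inverse up to
Turing equivalence -/
structure Aut where
  f : Rl → Rl
  g : Rl → Rl
  mono : ∀ A B, TR A B ↔ TR (f A) (f B)
  gf1 : ∀ A, TR (g (f A)) A
  gf2 : ∀ A, TR A (g (f A))
  fg1 : ∀ A, TR (f (g A)) A
  fg2 : ∀ A, TR A (f (g A))

end Vale.Agent.P327
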