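import Mathlib

/-!
Rigidity of the Turing degrees: basic definitions used in the proof.
-/

namespace Vale.Agent.P327

open Nat.Partrec (Code)

/-- reals, i.e. characteristic functions of subsets of ℕ -/
abbrev Rl := ℕ → Bool

/-- the oracle of a real -/
def ora (B : Rl) : ℕ →. ℕ := fun n => Part.some (B n).toNat

/-- Turing reducibility of reals -/
def TR (A B : Rl) : Prop := Nat.RecursiveIn {ora B} (ora A)

/-- reversed initial segment `[B (l-1), ..., B 0]` -/
def rp (B : Rl) : ℕ → List Bool
  | 0 => []
  | l + 1 => B l :: rp B l

/-- the Turing functional with code `c` computes `A` from `B` -/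
def Phi (c : Code) (B A : Rl) : Prop :=
  ∀ n v, A n = v ↔
    ∃ l k, Code.evaln k c (Nat.pair (Encodable.encode (rp B l)) n) = some (Bool.toNat v)

/-- join of two reals -/
def jn (A B : Rl) : Rl := fun n => cond n.bodd (B n.div2) (A n.div2)

/-- pairwise exclusive or -/
def xr (A B : Rl) : Rl := fun n => xor (A n) (B n)

/-- code a sequence of reals by one real -/
def cd (X : ℕ → Rl) : Rl := fun n => X n.unpair.1 n.unpair.2

/-- put a real in front of a sequence -/
def cs (U : Rl) (V : ℕ → Rl) : ℕ → Rl
  | 0 => U
  | j + 1 => V j

/-- delete one member of a sequence -/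
def del (i : ℕ) (X : ℕ → Rl) : ℕ → Rl := Function.update X i (fun _ => false)

end Vale.Agent.P327
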