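import Vale.Agent.P327.Defs

/-!
Recursion theory, part 1: total functions recursive in a real, search principle, use principle.
-/

namespace Vale.Agent.P327

open Nat.Partrec (Code)
open Encodable

/-- total number functions recursive in a real -/
def Tot (B : Rl) (f : ℕ → ℕ) : Prop := Nat.RecursiveIn {ora B} (fun n => Part.some (f n))

theorem Tot.of_partrec {B : Rl} {f : ℕ → ℕ} (hf : Nat.Partrec fun n => Part.some (f n)) :
    Tot B f := Nat.Partrec.recursiveIn hf

theorem Tot.of_computable {B : Rl} {f : ℕ → ℕ} (hf : Computable f) : Tot B f :=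
  Tot.of_partrec (Partrec.nat_iff.1 hf.partrec)

theorem Tot.of_eq {B : Rl} {f g : ℕ → ℕ} (hf : Tot B f) (h : ∀ n, f n = g n) : Tot B g := by
  have : f = g := funext h
  rwa [← this]

theorem Tot.comp {B : Rl} {f g : ℕ → ℕ} (hf : Tot B f) (hg : Tot B g) :
    Tot B (fun n => f (g n)) := by
  have := Nat.RecursiveIn.comp hf hg
  simpa [Tot] using this

theorem Tot.pair {B : Rl} {f g : ℕ → ℕ} (hf : Tot B f) (hg : Tot B g) :
    Tot B (fun n => Nat.pair (f n) (g n)) := by
  have := Nat.RecursiveIn.pair hf hg
  refine this.of_eq (fun n => ?_)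
  simp [Seq.seq]

theorem Tot.ora {B : Rl} : Tot B (fun n => (B n).toNat) :=
  Nat.RecursiveIn.oracle _ rfl

theorem TR_iff {A B : Rl} : TR A B ↔ Tot B (fun n => (A n).toNat) := Iff.rfl

theorem Tot.prec {B : Rl} {f h : ℕ → ℕ} (hf : Tot B f) (hh : Tot B h) :
    Tot B (fun p => Nat.rec (motive := fun _ => ℕ) (f p.unpair.1)
      (fun y IH => h (Nat.pair p.unpair.1 (Nat.pair y IH))) p.unpair.2) := by
  have := Nat.RecursiveIn.prec hf hh
  refine this.of_eq (fun p => ?_)
  simp only
  generalize p.unpair.1 = a
  generalize p.unpair.2 = n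
  induction n with
  | zero => rfl
  | succ n ih =>
    show (Nat.rec (Part.some (f a))
      (fun y IH => do
        let i ← IH
        Part.some (h (Nat.pair a (Nat.pair y i)))) n >>= fun i =>
          Part.some (h (Nat.pair a (Nat.pair n i)))) = _
    rw [ih]
    exact Part.bind_some _ _

theorem Tot.rfind {B : Rl} {f : ℕ → ℕ} (hf : Tot B f) (hex : ∀ a, ∃ n, f (Nat.pair a n) = 0) :
    ∃ r : ℕ → ℕ, Tot B r ∧ ∀ a, f (Nat.pair a (r a)) = 0 := by
  have h := Nat.RecursiveIn.rfind hf
  have hdom : ∀ a, (Nat.rfind fun n => (fun m => decide (m = 0)) <$> Part.some (f (Nat.pair a n))).Dom := by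
    intro a
    obtain ⟨n, hn⟩ := hex a
    refine (Nat.rfind_dom).2 ⟨n, ?_, ?_⟩
    · simp [hn]
    · intro m _; simp
  refine ⟨fun a => (Nat.rfind fun n => (fun m => decide (m = 0)) <$> Part.some (f (Nat.pair a n))).get (hdom a), ?_, ?_⟩
  · refine h.of_eq (fun a => ?_)
    simp
  · intro a
    have := Part.get_mem (hdom a)
    have h2 := (Nat.mem_rfind.1 this).1
    simpa using h2

theorem rp_length (B : Rl) (l : ℕ) : (rp B l).length = l := by
  induction l with
  | zero => rfl
  | succ l ih => simp [rp, ih]

theorem Tot.rp {B : Rl} : Tot B (fun l => encode (rp B l)) := by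
  have h0 : Tot B (fun _ : ℕ => 0) := Tot.of_computable (Computable.const 0)
  have hh : Tot B (fun q => Nat.succ (Nat.pair (B q.unpair.2.unpair.1).toNat q.unpair.2.unpair.2)) := by
    have e1 : Tot B (fun q => q.unpair.2.unpair.1) :=
      Tot.of_computable (Computable.fst.comp (Computable.unpair.comp (Computable.snd.comp Computable.unpair)))
    have e2 : Tot B (fun q => q.unpair.2.unpair.2) :=
      Tot.of_computable (Computable.snd.comp (Computable.unpair.comp (Computable.snd.comp Computable.unpair)))
    exact (Tot.of_computable Computable.succ).comp ((Tot.ora.comp e1).pair e2)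
  have hp := Tot.prec h0 hh
  have hq : Tot B (fun l => Nat.pair 0 l) :=
    (Tot.of_computable (Computable.const 0)).pair (Tot.of_computable Computable.id)
  refine (hp.comp hq).of_eq (fun l => ?_)
  simp only [Nat.unpair_pair]
  induction l with
  | zero => rfl
  | succ l ih =>
    simp only [ih]
    simp [P327.rp]
    cases B l <;> rfl

/-- search principle -/
theorem TR_of_search {A B : Rl} (T : List Bool → ℕ → ℕ → Option Bool)
    (hT : Computable fun p : List Bool × ℕ × ℕ => T p.1 p.2.1 p.2.2)
    (h : ∀ n v, A n = v ↔ ∃ l m, T (rp B l) m n = some v) : TR A B := by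
  -- the total function t (pair n k) = encode (T (rp B k.1) k.2 n)
  let t : ℕ → ℕ := fun p => encode (T (rp B p.unpair.2.unpair.1) p.unpair.2.unpair.2 p.unpair.1)
  have ht : Tot B t := by
    have e1 : Tot B (fun p => encode (rp B p.unpair.2.unpair.1)) :=
      Tot.rp.comp (Tot.of_computable
        (Computable.fst.comp (Computable.unpair.comp (Computable.snd.comp Computable.unpair))))
    have e2 : Tot B (fun p => p.unpair.2.unpair.2) := Tot.of_computable
        (Computable.snd.comp (Computable.unpair.comp (Computable.snd.comp Computable.unpair)))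
    have e3 : Tot B (fun p => p.unpair.1) := Tot.of_computable
        (Computable.fst.comp Computable.unpair)
    have e4 := e1.pair (e2.pair e3)
    have e5 := Nat.Partrec.recursiveIn (O := {P327.ora B}) hT.partrec
    refine (Nat.RecursiveIn.comp e5 e4).of_eq (fun p => ?_)
    have : Nat.pair (encode (rp B p.unpair.2.unpair.1))
        (Nat.pair p.unpair.2.unpair.2 p.unpair.1) =
        encode ((rp B p.unpair.2.unpair.1, p.unpair.2.unpair.2, p.unpair.1) :
          List Bool × ℕ × ℕ) := rfl
    simp only [Part.bind_eq_bind, Part.bind_some]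
    rw [this, encodek]
    simp [t]
  have hz : Tot B (fun p => if t p = 0 then 1 else 0) := by
    have : Computable (fun n : ℕ => if n = 0 then 1 else 0) := by
      have : Primrec (fun n : ℕ => if n = 0 then 1 else 0) :=
        Primrec.ite (Primrec.eq.comp Primrec.id (Primrec.const 0)) (Primrec.const 1) (Primrec.const 0)
      exact this.to_comp
    exact (Tot.of_computable this).comp ht
  obtain ⟨r, hr, hr2⟩ := Tot.rfind hz (by
    intro n
    obtain ⟨l, m, hlm⟩ := (h n (A n)).1 rfl
    refine ⟨Nat.pair l m, ?_⟩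
    simp [t, hlm])
  have hfin : Tot B (fun n => Nat.pred (t (Nat.pair n (r n)))) :=
    (Tot.of_computable Primrec.pred.to_comp).comp
      (ht.comp ((Tot.of_computable Computable.id).pair hr))
  refine TR_iff.2 (hfin.of_eq (fun n => ?_))
  have h1 := hr2 n
  have h2 : t (Nat.pair n (r n)) ≠ 0 := by
    intro h0
    rw [if_pos h0] at h1
    exact one_ne_zero h1
  have h3 : t (Nat.pair n (r n)) = encode (T (rp B (r n).unpair.1) (r n).unpair.2 n) := by
    simp [t]
  rw [h3] at h2 ⊢
  cases hT' : T (rp B (r n).unpair.1) (r n).unpair.2 n with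
  | none => rw [hT'] at h2; exact absurd rfl h2
  | some v =>
    have : A n = v := (h n v).2 ⟨_, _, hT'⟩
    rw [this]
    cases v <;> rfl

end Vale.Agent.P327
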