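import Vale.Agent.P327.Rec1
import Vale.Agent.P327.Use

/-!
Rigidity of the Turing degrees: stage approximations of functionals applied to
finite initial segments of the oracle.
-/

namespace Vale.Agent.P327

open Nat.Partrec (Code)
open Encodable Filter

/-! ### reversed lists -/

/-- the reversed list `[f (l-1), ..., f 0]` -/
def mk (f : ℕ → Bool) (l : ℕ) : List Bool := (List.range l).reverse.map f

theorem mk_succ (f : ℕ → Bool) (l : ℕ) : mk f (l + 1) = f l :: mk f l := by
  simp [mk, List.range_succ]

theorem rp_eq_mk (B : Rl) (l : ℕ) : rp B l = mk B l := by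
  induction l with
  | zero => rfl
  | succ l ih => rw [mk_succ, rp, ih]

theorem mk_congr {f g : ℕ → Bool} {l : ℕ} (h : ∀ i, i < l → f i = g i) : mk f l = mk g l := by
  unfold mk
  apply List.map_congr_left
  intro a ha
  rw [List.mem_reverse, List.mem_range] at ha
  exact h a ha

/-- bit number `i` of a reversed list -/
def ge (a : List Bool) (i : ℕ) : Bool := a.getD (a.length - 1 - i) false

theorem ge_rp (B : Rl) {l i : ℕ} (h : i < l) : ge (rp B l) i = B i := by
  induction l with
  | zero => omega
  | succ l ih =>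
    unfold ge
    rw [rp_length]
    rcases Nat.lt_succ_iff_lt_or_eq.1 h with h' | h'
    · have h2 := ih h'
      unfold ge at h2
      rw [rp_length] at h2
      have : l + 1 - 1 - i = (l - 1 - i) + 1 := by omega
      rw [this, rp, List.getD_cons_succ]
      exact h2
    · subst h'
      simp [rp]

theorem drop_rp (B : Rl) {l l' : ℕ} (h : l' ≤ l) : (rp B l).drop (l - l') = rp B l' := by
  induction l with
  | zero =>
    have : l' = 0 := by omega
    subst this
    rfl
  | succ l ih =>
    rcases Nat.lt_or_ge l l' with h' | h'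
    · have : l' = l + 1 := by omega
      subst this
      simp
    · have : l + 1 - l' = (l - l') + 1 := by omega
      rw [this, rp, List.drop_succ_cons]
      exact ih h'

theorem drop_rp' (B : Rl) (l j : ℕ) : (rp B l).drop j = rp B (l - j) := by
  rcases Nat.lt_or_ge l j with h' | h'
  · rw [List.drop_eq_nil_of_le (by rw [rp_length]; omega)]
    have : l - j = 0 := by omega
    rw [this]; rfl
  · have := drop_rp B (show l - j ≤ l by omega)
    rwa [show l - (l - j) = j by omega] at this

theorem primrec_mk {α : Type*} [Primcodable α] {f : α → ℕ → Bool} {l : α → ℕ}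
    (hf : Primrec₂ f) (hl : Primrec l) : Primrec fun a => mk (f a) (l a) :=
  Primrec.list_map (Primrec.list_reverse.comp (Primrec.list_range.comp hl)) hf

theorem primrec_ge : Primrec₂ ge := by
  have h1 : Primrec₂ (fun (a : List Bool) (i : ℕ) => a.length - 1 - i) :=
    Primrec.nat_sub.comp (Primrec.nat_sub.comp (Primrec.list_length.comp Primrec.fst)
      (Primrec.const 1)) Primrec.snd
  exact (Primrec.list_getD false).comp Primrec.fst h1

/-- join of two reversed lists -/
def jl (a b : List Bool) : List Bool :=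
  mk (fun i => cond i.bodd (ge b i.div2) (ge a i.div2)) (2 * min a.length b.length)

theorem jl_rp (A B : Rl) (l l' : ℕ) : jl (rp A l) (rp B l') = rp (jn A B) (2 * min l l') := by
  unfold jl
  rw [rp_length, rp_length, rp_eq_mk (jn A B)]
  apply mk_congr
  intro i hi
  have h2 : i.div2 < min l l' := by
    have := Nat.div2_val i
    omega
  rw [ge_rp A (by omega), ge_rp B (by omega)]
  rfl

theorem primrec_jl : Primrec₂ jl := by
  have hd : Primrec (fun p : (List Bool × List Bool) × ℕ => p.2.div2) :=
    Primrec.nat_div2.comp Primrec.snd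
  have hb : Primrec (fun p : (List Bool × List Bool) × ℕ => p.2.bodd) :=
    Primrec.nat_bodd.comp Primrec.snd
  have h1 : Primrec (fun p : (List Bool × List Bool) × ℕ => ge p.1.1 p.2.div2) :=
    primrec_ge.comp (Primrec.fst.comp Primrec.fst) hd
  have h2 : Primrec (fun p : (List Bool × List Bool) × ℕ => ge p.1.2 p.2.div2) :=
    primrec_ge.comp (Primrec.snd.comp Primrec.fst) hd
  have h3 : Primrec₂ (fun (p : List Bool × List Bool) (i : ℕ) =>
      cond i.bodd (ge p.2 i.div2) (ge p.1 i.div2)) := Primrec.cond hb h2 h1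
  have h4 : Primrec (fun p : List Bool × List Bool => 2 * min p.1.length p.2.length) :=
    Primrec.nat_mul.comp (Primrec.const 2)
      (Primrec.nat_min.comp (Primrec.list_length.comp Primrec.fst)
        (Primrec.list_length.comp Primrec.snd))
  exact primrec_mk h3 h4

/-- left part of a reversed list -/
def pl (a : List Bool) : List Bool := mk (fun i => ge a (2 * i)) (a.length / 2)

/-- right part of a reversed list -/
def pr (a : List Bool) : List Bool := mk (fun i => ge a (2 * i + 1)) (a.length / 2)

theorem jn_even (A B : Rl) (i : ℕ) : jn A B (2 * i) = A i := by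
  unfold jn
  rw [Nat.bodd_mul, Nat.bodd_two, Bool.false_and, Nat.div2_val]
  simp

theorem jn_odd (A B : Rl) (i : ℕ) : jn A B (2 * i + 1) = B i := by
  unfold jn
  rw [Nat.bodd_succ, Nat.bodd_mul, Nat.bodd_two, Bool.false_and, Nat.div2_val,
    show (2 * i + 1) / 2 = i by omega]
  simp

theorem pl_rp (A B : Rl) (l : ℕ) : pl (rp (jn A B) l) = rp A (l / 2) := by
  unfold pl
  rw [rp_length, rp_eq_mk A]
  apply mk_congr
  intro i hi
  rw [ge_rp _ (by omega), jn_even]

theorem pr_rp (A B : Rl) (l : ℕ) : pr (rp (jn A B) l) = rp B (l / 2) := by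
  unfold pr
  rw [rp_length, rp_eq_mk B]
  apply mk_congr
  intro i hi
  rw [ge_rp _ (by omega), jn_odd]

theorem primrec_pl : Primrec pl := by
  have h1 : Primrec₂ (fun (a : List Bool) (i : ℕ) => ge a (2 * i)) :=
    primrec_ge.comp Primrec.fst (Primrec.nat_mul.comp (Primrec.const 2) Primrec.snd)
  exact primrec_mk h1 (Primrec.nat_div.comp Primrec.list_length (Primrec.const 2))

theorem primrec_pr : Primrec pr := by
  have h1 : Primrec₂ (fun (a : List Bool) (i : ℕ) => ge a (2 * i + 1)) :=
    primrec_ge.comp Primrec.fst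
      (Primrec.succ.comp (Primrec.nat_mul.comp (Primrec.const 2) Primrec.snd))
  exact primrec_mk h1 (Primrec.nat_div.comp Primrec.list_length (Primrec.const 2))

/-! ### one step of a functional -/

/-- value of the functional after `s` steps on a reversed list -/
def ev (c : Code) (s : ℕ) (a : List Bool) (n : ℕ) : Option Bool :=
  (Code.evaln s c (Nat.pair (encode a) n)).bind fun r =>
    if r = 0 then some false else if r = 1 then some true else none

theorem ev_eq {c : Code} {s : ℕ} {a : List Bool} {n : ℕ} {v : Bool} :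
    ev c s a n = some v ↔ Code.evaln s c (Nat.pair (encode a) n) = some v.toNat := by
  unfold ev
  cases h : Code.evaln s c (Nat.pair (encode a) n) with
  | none => simp
  | some r =>
    simp only [Option.bind_some, Option.some.injEq]
    rcases Nat.lt_or_ge r 2 with h2 | h2
    · interval_cases r <;> cases v <;> simp
    · have h3 : r ≠ 0 := by omega
      have h4 : r ≠ 1 := by omega
      rw [if_neg h3, if_neg h4]
      cases v <;> simp [h3, h4]

theorem primrec_ev (c : Code) : Primrec (fun p : ℕ × List Bool × ℕ => ev c p.1 p.2.1 p.2.2) := by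
  have h1 : Primrec (fun p : ℕ × List Bool × ℕ =>
      Code.evaln p.1 c (Nat.pair (encode p.2.1) p.2.2)) := by
    have := Nat.Partrec.Code.primrec_evaln
    refine this.comp (Primrec.pair (Primrec.pair Primrec.fst (Primrec.const c)) ?_)
    exact Primrec₂.natPair.comp (Primrec.encode.comp (Primrec.fst.comp Primrec.snd))
      (Primrec.snd.comp Primrec.snd)
  have h2 : Primrec (fun r : ℕ => if r = 0 then some false else if r = 1 then some true else none) :=
    Primrec.ite (Primrec.eq.comp Primrec.id (Primrec.const 0)) (Primrec.const _)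
      (Primrec.ite (Primrec.eq.comp Primrec.id (Primrec.const 1)) (Primrec.const _)
        (Primrec.const _))
  exact Primrec.option_bind h1 (h2.comp Primrec.snd).to₂

/-- value of the functional on some tail of a reversed list -/
def va (c : Code) (a : List Bool) (s n : ℕ) : Option Bool :=
  ((List.range (a.length + 1)).filterMap fun j => ev c s (a.drop j) n).head?

theorem primrec_va (c : Code) : Primrec (fun p : List Bool × ℕ × ℕ => va c p.1 p.2.1 p.2.2) := by
  have h1 : Primrec (fun p : List Bool × ℕ × ℕ => List.range (p.1.length + 1)) :=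
    Primrec.list_range.comp (Primrec.succ.comp (Primrec.list_length.comp Primrec.fst))
  have h2 : Primrec₂ (fun (p : List Bool × ℕ × ℕ) (j : ℕ) => ev c p.2.1 (p.1.drop j) p.2.2) := by
    refine (primrec_ev c).comp (Primrec.pair ?_ (Primrec.pair ?_ ?_))
    · exact Primrec.fst.comp (Primrec.snd.comp Primrec.fst)
    · exact Primrec.list_drop.comp Primrec.snd (Primrec.fst.comp Primrec.fst)
    · exact Primrec.snd.comp (Primrec.snd.comp Primrec.fst)
  exact Primrec.list_head?.comp (Primrec.listFilterMap h1 h2)

theorem va_sound {c : Code} {A B : Rl} (h : Phi c B A) {l s n : ℕ} {v : Bool}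
    (hv : va c (rp B l) s n = some v) : A n = v := by
  unfold va at hv
  have := List.mem_of_mem_head? (Option.mem_def.2 hv)
  rw [List.mem_filterMap] at this
  obtain ⟨j, _, hj⟩ := this
  rw [drop_rp', ev_eq] at hj
  exact (h n v).2 ⟨_, _, hj⟩

theorem va_complete {c : Code} {A B : Rl} (h : Phi c B A) (n : ℕ) :
    ∃ N, ∀ l s, N ≤ l → N ≤ s → va c (rp B l) s n = some (A n) := by
  obtain ⟨l0, k0, h0⟩ := (h n (A n)).1 rfl
  refine ⟨max l0 k0, fun l s hl hs => ?_⟩
  have h1 : Code.evaln s c (Nat.pair (encode (rp B l0)) n) = some (A n).toNat :=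
    Nat.Partrec.Code.evaln_mono (le_trans (le_max_right _ _) hs) h0
  have h2 : ev c s ((rp B l).drop (l - l0)) n = some (A n) := by
    rw [drop_rp B (le_trans (le_max_left _ _) hl), ev_eq]
    exact h1
  have h3 : A n ∈ (List.range ((rp B l).length + 1)).filterMap fun j => ev c s ((rp B l).drop j) n := by
    rw [List.mem_filterMap]
    refine ⟨l - l0, ?_, h2⟩
    rw [List.mem_range, rp_length]
    omega
  cases hv : va c (rp B l) s n with
  | none =>
    unfold va at hv
    rw [List.head?_eq_none_iff] at hv
    rw [hv] at h3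
    exact absurd h3 (by simp)
  | some v => rw [va_sound h hv]

/-- apply a functional to a reversed list -/
def ap (c : Code) (a : List Bool) (s : ℕ) : ℕ → List Bool
  | 0 => []
  | m + 1 => Option.casesOn (va c a s (ap c a s m).length) (ap c a s m) (fun v => v :: ap c a s m)

theorem ap_sound {c : Code} {A B : Rl} (h : Phi c B A) (l s m : ℕ) :
    ap c (rp B l) s m = rp A (ap c (rp B l) s m).length := by
  induction m with
  | zero => rfl
  | succ m ih =>
    unfold ap
    cases hv : va c (rp B l) s (ap c (rp B l) s m).length with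
    | none => exact ih
    | some v =>
      have := va_sound h hv
      simp only [List.length_cons, rp]
      rw [this, ← ih]

theorem ap_complete {c : Code} {A B : Rl} (h : Phi c B A) (m : ℕ) :
    ∃ N, ∀ l s, N ≤ l → N ≤ s → m ≤ (ap c (rp B l) s s).length := by
  have h1 : ∃ N, ∀ i, i < m → ∀ l s, N ≤ l → N ≤ s → va c (rp B l) s i = some (A i) := by
    induction m with
    | zero => exact ⟨0, fun i hi => absurd hi (by omega)⟩
    | succ m ih =>
      obtain ⟨N, hN⟩ := ih
      obtain ⟨N', hN'⟩ := va_complete h m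
      refine ⟨max N N', fun i hi l s hl hs => ?_⟩
      rcases Nat.lt_succ_iff_lt_or_eq.1 hi with h' | h'
      · exact hN i h' l s (le_trans (le_max_left _ _) hl) (le_trans (le_max_left _ _) hs)
      · subst h'
        exact hN' l s (le_trans (le_max_right _ _) hl) (le_trans (le_max_right _ _) hs)
  obtain ⟨N, hN⟩ := h1
  refine ⟨max N m, fun l s hl hs => ?_⟩
  have key : ∀ k, min k m ≤ (ap c (rp B l) s k).length := by
    intro k
    induction k with
    | zero => simp
    | succ k ih =>
      unfold ap
      rcases Nat.lt_or_ge (ap c (rp B l) s k).length m with h' | h'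
      · rw [hN _ h' l s (le_trans (le_max_left _ _) hl) (le_trans (le_max_left _ _) hs)]
        simp only [List.length_cons]
        omega
      · cases hv : va c (rp B l) s (ap c (rp B l) s k).length with
        | none => simp only; omega
        | some v => simp only [List.length_cons]; omega
  have := key s
  have h2 : m ≤ s := le_trans (le_max_right _ _) hs
  omega

theorem primrec_ap (c : Code) : Primrec₂ (fun (a : List Bool) (s : ℕ) => ap c a s s) := by
  have hstep : Primrec₂ (fun (p : List Bool × ℕ) (q : ℕ × List Bool) =>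
      (Option.casesOn (va c p.1 p.2 q.2.length) q.2 (fun v => v :: q.2) : List Bool)) := by
    have h1 : Primrec (fun r : (List Bool × ℕ) × (ℕ × List Bool) =>
        va c r.1.1 r.1.2 r.2.2.length) := by
      refine (primrec_va c).comp (Primrec.pair ?_ (Primrec.pair ?_ ?_))
      · exact Primrec.fst.comp Primrec.fst
      · exact Primrec.snd.comp Primrec.fst
      · exact Primrec.list_length.comp (Primrec.snd.comp Primrec.snd)
    have h2 : Primrec (fun r : (List Bool × ℕ) × (ℕ × List Bool) => r.2.2) :=
      Primrec.snd.comp Primrec.snd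
    have h3 : Primrec₂ (fun (r : (List Bool × ℕ) × (ℕ × List Bool)) (v : Bool) => v :: r.2.2) :=
      Primrec.list_cons.comp Primrec.snd (Primrec.snd.comp (Primrec.snd.comp Primrec.fst))
    exact Primrec.option_casesOn h1 h2 h3
  have h := Primrec.nat_rec' (f := fun p : List Bool × ℕ => p.2) (g := fun _ => ([] : List Bool))
    Primrec.snd (Primrec.const _) hstep
  refine h.of_eq (fun p => ?_)
  obtain ⟨a, s⟩ := p
  simp only
  have : ∀ m, (Nat.rec [] (fun _ IH =>
      (Option.casesOn (va c a s IH.length) IH (fun v => v :: IH) : List Bool)) m : List Bool) =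
      ap c a s m := by
    intro m
    induction m with
    | zero => rfl
    | succ m ih => simp only [ap, ih]
  exact this s

/-! ### approximations along an oracle -/

/-- `t` approximates `A` along the oracle `Z` -/
def Ax (Z : Rl) (t : List Bool → List Bool) (A : Rl) : Prop :=
  (∀ l, ∃ l', t (rp Z l) = rp A l') ∧ ∀ m, ∃ N, ∀ l, N ≤ l → m ≤ (t (rp Z l)).length

theorem Ax.id (Z : Rl) : Ax Z (fun a => a) Z :=
  ⟨fun l => ⟨l, rfl⟩, fun m => ⟨m, fun l hl => by rw [rp_length]; exact hl⟩⟩

theorem Ax.pl {Z A B : Rl} {t : List Bool → List Bool} (h : Ax Z t (jn A B)) :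
    Ax Z (fun a => pl (t a)) A := by
  refine ⟨fun l => ?_, fun m => ?_⟩
  · obtain ⟨l', hl'⟩ := h.1 l
    exact ⟨l' / 2, by simp only [hl', pl_rp]⟩
  · obtain ⟨N, hN⟩ := h.2 (2 * m)
    refine ⟨N, fun l hl => ?_⟩
    have h1 := hN l hl
    obtain ⟨l', hl'⟩ := h.1 l
    simp only [hl', rp_length, pl_rp] at h1 ⊢
    omega

theorem Ax.pr {Z A B : Rl} {t : List Bool → List Bool} (h : Ax Z t (jn A B)) :
    Ax Z (fun a => pr (t a)) B := by
  refine ⟨fun l => ?_, fun m => ?_⟩
  · obtain ⟨l', hl'⟩ := h.1 l
    exact ⟨l' / 2, by simp only [hl', pr_rp]⟩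
  · obtain ⟨N, hN⟩ := h.2 (2 * m)
    refine ⟨N, fun l hl => ?_⟩
    have h1 := hN l hl
    obtain ⟨l', hl'⟩ := h.1 l
    simp only [hl', rp_length, pr_rp] at h1 ⊢
    omega

theorem Ax.jl {Z A B : Rl} {t u : List Bool → List Bool} (h : Ax Z t A) (h' : Ax Z u B) :
    Ax Z (fun a => jl (t a) (u a)) (jn A B) := by
  refine ⟨fun l => ?_, fun m => ?_⟩
  · obtain ⟨l1, hl1⟩ := h.1 l
    obtain ⟨l2, hl2⟩ := h'.1 l
    exact ⟨2 * min l1 l2, by simp only [hl1, hl2, jl_rp]⟩
  · obtain ⟨N, hN⟩ := h.2 m
    obtain ⟨N', hN'⟩ := h'.2 m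
    refine ⟨max N N', fun l hl => ?_⟩
    have h1 := hN l (by omega)
    have h2 := hN' l (by omega)
    obtain ⟨l1, hl1⟩ := h.1 l
    obtain ⟨l2, hl2⟩ := h'.1 l
    simp only [hl1, hl2, rp_length, jl_rp] at h1 h2 ⊢
    omega

theorem Ax.ap {Z A B : Rl} {t : List Bool → List Bool} {c : Code} (h : Ax Z t B)
    (hc : Phi c B A) : Ax Z (fun a => ap c (t a) a.length a.length) A := by
  refine ⟨fun l => ?_, fun m => ?_⟩
  · obtain ⟨l', hl'⟩ := h.1 l
    exact ⟨_, by simp only [hl']; exact ap_sound hc _ _ _⟩
  · obtain ⟨N, hN⟩ := ap_complete hc m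
    obtain ⟨N', hN'⟩ := h.2 N
    refine ⟨max N N', fun l hl => ?_⟩
    have h2 := hN' l (by omega)
    obtain ⟨l', hl'⟩ := h.1 l
    simp only [hl', rp_length] at h2 ⊢
    exact hN l' l h2 (by omega)

/-- two reversed lists differ at a common position -/
def df (a b : List Bool) : Bool :=
  decide (a.drop (a.length - b.length) ≠ b.drop (b.length - a.length))

theorem df_rp (A B : Rl) (l l' : ℕ) :
    df (rp A l) (rp B l') = true ↔ ∃ i, i < min l l' ∧ A i ≠ B i := by
  unfold df
  rw [decide_eq_true_iff, rp_length, rp_length, drop_rp', drop_rp',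
    show l - (l - l') = min l l' by omega, show l' - (l' - l) = min l l' by omega]
  constructor
  · intro h
    by_contra h2
    push Not at h2
    apply h
    rw [rp_eq_mk, rp_eq_mk]
    exact mk_congr h2
  · rintro ⟨i, hi, hne⟩ h
    apply hne
    rw [← ge_rp A hi, ← ge_rp B hi, h]

theorem primrec_df : Primrec₂ df := by
  have h1 : Primrec (fun p : List Bool × List Bool => p.1.drop (p.1.length - p.2.length)) :=
    Primrec.list_drop.comp (Primrec.nat_sub.comp (Primrec.list_length.comp Primrec.fst)
      (Primrec.list_length.comp Primrec.snd)) Primrec.fst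
  have h2 : Primrec (fun p : List Bool × List Bool => p.2.drop (p.2.length - p.1.length)) :=
    Primrec.list_drop.comp (Primrec.nat_sub.comp (Primrec.list_length.comp Primrec.snd)
      (Primrec.list_length.comp Primrec.fst)) Primrec.snd
  have h3 := (Primrec.eq.comp h1 h2).not
  exact h3.decide

theorem Ax.df {Z A B : Rl} {t u : List Bool → List Bool} (h : Ax Z t A) (h' : Ax Z u B) :
    A ≠ B ↔ ∃ l, df (t (rp Z l)) (u (rp Z l)) = true := by
  constructor
  · intro hne
    obtain ⟨i, hi⟩ := Function.ne_iff.1 hne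
    obtain ⟨N, hN⟩ := h.2 (i + 1)
    obtain ⟨N', hN'⟩ := h'.2 (i + 1)
    refine ⟨max N N', ?_⟩
    have h1 := hN (max N N') (by omega)
    have h2 := hN' (max N N') (by omega)
    obtain ⟨l1, hl1⟩ := h.1 (max N N')
    obtain ⟨l2, hl2⟩ := h'.1 (max N N')
    rw [hl1, rp_length] at h1
    rw [hl2, rp_length] at h2
    rw [hl1, hl2, df_rp]
    exact ⟨i, by omega, hi⟩
  · rintro ⟨l, hl⟩
    obtain ⟨l1, hl1⟩ := h.1 l
    obtain ⟨l2, hl2⟩ := h'.1 l
    rw [hl1, hl2, df_rp] at hl
    obtain ⟨i, _, hi⟩ := hl
    exact Function.ne_iff.2 ⟨i, hi⟩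

/-- approximations of the iterates -/
def rr (c c' : Code) (a : List Bool) : ℕ → List Bool
  | 0 => pl a
  | n + 1 => ap c' (jl (ap c (jl (rr c c' a n) (pl (pl (pr a)))) a.length a.length)
      (pr (pl (pr a)))) a.length a.length

/-- Uniform iteration of functionals and decoding. -/
theorem iter_decode (c c' : Code) (R Q S T : ℕ → Rl) (B0 B1 B2 B3 x : Rl)
    (hQ : ∀ n, Phi c (jn (R n) B0) (Q n))
    (hR : ∀ n, Phi c' (jn (Q n) B1) (R (n + 1)))
    (hS : ∀ n, Phi c' (jn (Q n) B2) (S n))
    (hT : ∀ n, Phi c' (jn (Q n) B3) (T n))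
    (h1 : ∀ n, x n = true ↔ R n ≠ S n)
    (h2 : ∀ n, x n = false ↔ R n ≠ T n) :
    TR x (jn (R 0) (jn (jn B0 B1) (jn B2 B3))) := by
  let Z : Rl := jn (R 0) (jn (jn B0 B1) (jn B2 B3))
  -- approximations of the parts of the oracle
  have aR0 : Ax Z (fun a => pl a) (R 0) := (Ax.id Z).pl
  have aB : Ax Z (fun a => pr a) (jn (jn B0 B1) (jn B2 B3)) := (Ax.id Z).pr
  have aB0 : Ax Z (fun a => pl (pl (pr a))) B0 := aB.pl.pl
  have aB1 : Ax Z (fun a => pr (pl (pr a))) B1 := aB.pl.pr
  have aB2 : Ax Z (fun a => pl (pr (pr a))) B2 := aB.pr.pl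
  have aB3 : Ax Z (fun a => pr (pr (pr a))) B3 := aB.pr.pr
  -- iterates
  have aQ' : ∀ n, Ax Z (fun a => rr c c' a n) (R n) →
      Ax Z (fun a => ap c (jl (rr c c' a n) (pl (pl (pr a)))) a.length a.length) (Q n) :=
    fun n h => (h.jl aB0).ap (hQ n)
  have aR : ∀ n, Ax Z (fun a => rr c c' a n) (R n) := by
    intro n
    induction n with
    | zero => exact aR0
    | succ n ih => exact ((aQ' n ih).jl aB1).ap (hR n)
  have aQ : ∀ n, Ax Z (fun a => ap c (jl (rr c c' a n) (pl (pl (pr a)))) a.length a.length) (Q n) :=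
    fun n => aQ' n (aR n)
  have aS : ∀ n, Ax Z (fun a => ap c' (jl (ap c (jl (rr c c' a n) (pl (pl (pr a))))
      a.length a.length) (pl (pr (pr a)))) a.length a.length) (S n) :=
    fun n => ((aQ n).jl aB2).ap (hS n)
  have aT : ∀ n, Ax Z (fun a => ap c' (jl (ap c (jl (rr c c' a n) (pl (pl (pr a))))
      a.length a.length) (pr (pr (pr a)))) a.length a.length) (T n) :=
    fun n => ((aQ n).jl aB3).ap (hT n)
  -- the search
  let F : List Bool → ℕ → ℕ → Option Bool := fun a _ n =>
    bif df (rr c c' a n) (ap c' (jl (ap c (jl (rr c c' a n) (pl (pl (pr a))))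
      a.length a.length) (pl (pr (pr a)))) a.length a.length) then some true
    else bif df (rr c c' a n) (ap c' (jl (ap c (jl (rr c c' a n) (pl (pl (pr a))))
      a.length a.length) (pr (pr (pr a)))) a.length a.length) then some false else none
  -- primitive recursiveness
  have prr : Primrec₂ (fun (a : List Bool) (n : ℕ) => rr c c' a n) := by
    have plen : Primrec (fun r : (List Bool × ℕ) × (ℕ × List Bool) => r.1.1.length) :=
      Primrec.list_length.comp (Primrec.fst.comp Primrec.fst)
    have pa : Primrec (fun r : (List Bool × ℕ) × (ℕ × List Bool) => r.1.1) :=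
      Primrec.fst.comp Primrec.fst
    have pih : Primrec (fun r : (List Bool × ℕ) × (ℕ × List Bool) => r.2.2) :=
      Primrec.snd.comp Primrec.snd
    have q1 := primrec_jl.comp pih (primrec_pl.comp (primrec_pl.comp (primrec_pr.comp pa)))
    have q2 := (primrec_ap c).comp q1 plen
    have q3 := primrec_jl.comp q2 (primrec_pr.comp (primrec_pl.comp (primrec_pr.comp pa)))
    have q4 := (primrec_ap c').comp q3 plen
    have h := Primrec.nat_rec' (f := fun p : List Bool × ℕ => p.2)
      (g := fun p : List Bool × ℕ => pl p.1)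
      (h := fun (p : List Bool × ℕ) (q : ℕ × List Bool) =>
        ap c' (jl (ap c (jl q.2 (pl (pl (pr p.1)))) p.1.length p.1.length)
          (pr (pl (pr p.1)))) p.1.length p.1.length)
      Primrec.snd (primrec_pl.comp Primrec.fst) q4.to₂
    refine h.of_eq (fun p => ?_)
    obtain ⟨a, s⟩ := p
    simp only
    induction s with
    | zero => rfl
    | succ m ih => simp only [rr, ih]
  have pF : Primrec (fun p : List Bool × ℕ × ℕ => F p.1 p.2.1 p.2.2) := by
    have pa : Primrec (fun p : List Bool × ℕ × ℕ => p.1) := Primrec.fst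
    have pn : Primrec (fun p : List Bool × ℕ × ℕ => p.2.2) := Primrec.snd.comp Primrec.snd
    have plen : Primrec (fun p : List Bool × ℕ × ℕ => p.1.length) :=
      Primrec.list_length.comp Primrec.fst
    have q0 := prr.comp pa pn
    have q1 := primrec_jl.comp q0 (primrec_pl.comp (primrec_pl.comp (primrec_pr.comp pa)))
    have q2 := (primrec_ap c).comp q1 plen
    have q3 := primrec_jl.comp q2 (primrec_pl.comp (primrec_pr.comp (primrec_pr.comp pa)))
    have q4 := (primrec_ap c').comp q3 plen
    have q5 := primrec_jl.comp q2 (primrec_pr.comp (primrec_pr.comp (primrec_pr.comp pa)))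
    have q6 := (primrec_ap c').comp q5 plen
    have d1 := primrec_df.comp q0 q4
    have d2 := primrec_df.comp q0 q6
    exact Primrec.cond d1 (Primrec.const _) (Primrec.cond d2 (Primrec.const _) (Primrec.const _))
  refine TR_of_search F pF.to_comp (fun n v => ?_)
  have e1 := (aR n).df (aS n)
  have e2 := (aR n).df (aT n)
  have hcase : ∀ l, F (rp Z l) 0 n = some v → x n = v := by
    intro l hl
    simp only [F] at hl
    cases hd : df (rr c c' (rp Z l) n) (ap c' (jl (ap c (jl (rr c c' (rp Z l) n)
        (pl (pl (pr (rp Z l))))) (rp Z l).length (rp Z l).length) (pl (pr (pr (rp Z l)))))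
        (rp Z l).length (rp Z l).length) with
    | true =>
      rw [hd] at hl
      have : x n = true := (h1 n).2 (e1.2 ⟨l, hd⟩)
      simp only [cond_true, Option.some.injEq] at hl
      rw [this, hl]
    | false =>
      rw [hd] at hl
      cases hd2 : df (rr c c' (rp Z l) n) (ap c' (jl (ap c (jl (rr c c' (rp Z l) n)
          (pl (pl (pr (rp Z l))))) (rp Z l).length (rp Z l).length) (pr (pr (pr (rp Z l)))))
          (rp Z l).length (rp Z l).length) with
      | true =>
        rw [hd2] at hl
        have : x n = false := (h2 n).2 (e2.2 ⟨l, hd2⟩)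
        simp only [cond_true, cond_false, Option.some.injEq] at hl
        rw [this, hl]
      | false =>
        rw [hd2] at hl
        simp at hl
  constructor
  · intro hx
    cases v with
    | true =>
      obtain ⟨l, hl⟩ := e1.1 ((h1 n).1 hx)
      exact ⟨l, 0, by
        show F (rp Z l) 0 n = some true
        simp only [F]; rw [hl]; rfl⟩
    | false =>
      obtain ⟨l, hl⟩ := e2.1 ((h2 n).1 hx)
      refine ⟨l, 0, ?_⟩
      show F (rp Z l) 0 n = some false
      simp only [F]
      rw [hl]
      cases hd : df (rr c c' (rp Z l) n) (ap c' (jl (ap c (jl (rr c c' (rp Z l) n)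
        (pl (pl (pr (rp Z l))))) (rp Z l).length (rp Z l).length) (pl (pr (pr (rp Z l)))))
        (rp Z l).length (rp Z l).length) with
      | true =>
        have : x n = true := (h1 n).2 (e1.2 ⟨l, hd⟩)
        rw [this] at hx
        exact absurd hx (by simp)
      | false => rfl
  · rintro ⟨l, m, hl⟩
    exact hcase l hl

/-- search function for `lemS_core`: `a` is a reversed segment of `A`, `u` an initial segment
of `V` -/
def mixl (a u : List Bool) (l : ℕ) : List Bool :=
  mk (fun i => cond i.bodd (u.getD i.div2 false) (ge a i.div2)) l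

theorem mixl_eq {A V : Rl} {u : List Bool} {l l' : ℕ} (hu : ∀ i b, u[i]? = some b → V i = b)
    (h1 : l ≤ 2 * l') (h2 : l ≤ 2 * u.length) : mixl (rp A l') u l = rp (jn A V) l := by
  unfold mixl
  rw [rp_eq_mk (jn A V)]
  apply mk_congr
  intro i hi
  have h4 : i.div2 < l' := by
    have := Nat.div2_val i
    omega
  have h5 : i.div2 < u.length := by
    have := Nat.div2_val i
    omega
  rw [ge_rp A h4]
  have h6 : u.getD i.div2 false = V i.div2 := by
    rw [List.getD_eq_getElem _ _ h5]
    exact (hu _ _ (List.getElem?_eq_getElem h5)).symm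
  rw [h6]
  rfl

theorem primrec_mixl : Primrec (fun p : List Bool × List Bool × ℕ => mixl p.1 p.2.1 p.2.2) := by
  have hd : Primrec (fun p : (List Bool × List Bool × ℕ) × ℕ => p.2.div2) :=
    Primrec.nat_div2.comp Primrec.snd
  have hb : Primrec (fun p : (List Bool × List Bool × ℕ) × ℕ => p.2.bodd) :=
    Primrec.nat_bodd.comp Primrec.snd
  have h1 : Primrec (fun p : (List Bool × List Bool × ℕ) × ℕ => ge p.1.1 p.2.div2) :=
    primrec_ge.comp (Primrec.fst.comp Primrec.fst) hd
  have h2 : Primrec (fun p : (List Bool × List Bool × ℕ) × ℕ => p.1.2.1.getD p.2.div2 false) :=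
    (Primrec.list_getD false).comp (Primrec.fst.comp (Primrec.snd.comp Primrec.fst)) hd
  have h3 : Primrec₂ (fun (p : List Bool × List Bool × ℕ) (i : ℕ) =>
      cond i.bodd (p.2.1.getD i.div2 false) (ge p.1 i.div2)) := Primrec.cond hb h2 h1
  exact primrec_mk h3 (Primrec.snd.comp Primrec.snd)

/-- If `c` computes `K` from `A ⊕ V` for a set of `V` that is dense in the cylinder of `w`,
then `K ≤ A`. -/
theorem lemS_core {c : Code} {A K : Rl} (w : List Bool)
    (h : ∀ τ : List Bool, ∃ V : Rl, (∀ i b, (w ++ τ)[i]? = some b → V i = b) ∧ Phi c (jn A V) K) :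
    TR K A := by
  -- the search: `m` codes `(τ, l, k)`
  let G : List Bool → (List Bool × ℕ × ℕ) → ℕ → Option Bool := fun a q n =>
    bif decide (q.2.1 ≤ 2 * a.length) && decide (q.2.1 ≤ 2 * (w ++ q.1).length)
    then ev c q.2.2 (mixl a (w ++ q.1) q.2.1) n else none
  let F : List Bool → ℕ → ℕ → Option Bool := fun a m n =>
    (decode (α := List Bool × ℕ × ℕ) m).bind fun q => G a q n
  have pG : Primrec (fun r : (List Bool × ℕ × ℕ) × (List Bool × ℕ × ℕ) => G r.1.1 r.2 r.1.2.2) := by
    have pa : Primrec (fun r : (List Bool × ℕ × ℕ) × (List Bool × ℕ × ℕ) => r.1.1) :=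
      Primrec.fst.comp Primrec.fst
    have pn : Primrec (fun r : (List Bool × ℕ × ℕ) × (List Bool × ℕ × ℕ) => r.1.2.2) :=
      Primrec.snd.comp (Primrec.snd.comp Primrec.fst)
    have pw : Primrec (fun r : (List Bool × ℕ × ℕ) × (List Bool × ℕ × ℕ) => w ++ r.2.1) :=
      Primrec.list_append.comp (Primrec.const w) (Primrec.fst.comp Primrec.snd)
    have pL : Primrec (fun r : (List Bool × ℕ × ℕ) × (List Bool × ℕ × ℕ) => r.2.2.1) :=
      Primrec.fst.comp (Primrec.snd.comp Primrec.snd)
    have pk : Primrec (fun r : (List Bool × ℕ × ℕ) × (List Bool × ℕ × ℕ) => r.2.2.2) :=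
      Primrec.snd.comp (Primrec.snd.comp Primrec.snd)
    have c1 := (Primrec.nat_le.comp pL (Primrec.nat_mul.comp (Primrec.const 2)
      (Primrec.list_length.comp pa))).decide
    have c2 := (Primrec.nat_le.comp pL (Primrec.nat_mul.comp (Primrec.const 2)
      (Primrec.list_length.comp pw))).decide
    have e := (primrec_ev c).comp (Primrec.pair pk (Primrec.pair
      (primrec_mixl.comp (Primrec.pair pa (Primrec.pair pw pL))) pn))
    exact Primrec.cond (Primrec.and.comp c1 c2) e (Primrec.const _)
  have pF : Primrec (fun p : List Bool × ℕ × ℕ => F p.1 p.2.1 p.2.2) := by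
    have h1 : Primrec (fun p : List Bool × ℕ × ℕ => (decode p.2.1 : Option (List Bool × ℕ × ℕ))) :=
      Primrec.decode.comp (Primrec.fst.comp Primrec.snd)
    exact Primrec.option_bind h1 pG
  refine TR_of_search F pF.to_comp (fun n v => ?_)
  constructor
  · intro hv
    obtain ⟨V, hV, hphi⟩ := h []
    obtain ⟨l, k, hk⟩ := (hphi n v).1 hv
    let τ : List Bool := (List.range l).map fun i => V (w.length + i)
    have hwτ : ∀ i b, (w ++ τ)[i]? = some b → V i = b := by
      intro i b hib
      rcases Nat.lt_or_ge i w.length with hi | hi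
      · rw [List.getElem?_append_left hi] at hib
        apply hV i b
        rw [List.getElem?_append_left hi]
        exact hib
      · rw [List.getElem?_append_right hi] at hib
        simp only [τ, List.getElem?_map, Option.map_eq_some_iff] at hib
        obtain ⟨j, hj, hb⟩ := hib
        rw [List.getElem?_eq_some_iff] at hj
        obtain ⟨hlt, hj⟩ := hj
        rw [List.getElem_range] at hj
        rw [← hb, ← hj]
        congr 1
        omega
    refine ⟨l, encode ((τ, l, k) : List Bool × ℕ × ℕ), ?_⟩
    simp only [F, encodek, Option.bind_some, G]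
    have d1 : decide (l ≤ 2 * (rp A l).length) = true := by
      rw [rp_length]; simp; omega
    have d2 : decide (l ≤ 2 * (w ++ τ).length) = true := by
      simp [τ]; omega
    rw [d1, d2, mixl_eq hwτ (by omega) (by simpa using d2)]
    exact ev_eq.2 hk
  · rintro ⟨l, m, hm⟩
    simp only [F] at hm
    cases hd : (decode m : Option (List Bool × ℕ × ℕ)) with
    | none => rw [hd] at hm; simp at hm
    | some q =>
      rw [hd] at hm
      simp only [Option.bind_some, G] at hm
      obtain ⟨V, hV, hphi⟩ := h q.1
      cases d1 : decide (q.2.1 ≤ 2 * (rp A l).length) with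
      | false => rw [d1] at hm; simp at hm
      | true =>
        cases d2 : decide (q.2.1 ≤ 2 * (w ++ q.1).length) with
        | false => rw [d1, d2] at hm; simp at hm
        | true =>
          rw [d1, d2] at hm
          simp only [Bool.and_self, cond_true] at hm
          rw [mixl_eq hV (by rw [rp_length] at d1; exact of_decide_eq_true d1)
            (of_decide_eq_true d2), ev_eq] at hm
          exact (hphi n v).2 ⟨_, _, hm⟩

end Vale.Agent.P327
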