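import Vale.Agent.P327.Rec2

/-!
Rigidity of the Turing degrees: elementary reductions.
-/

namespace Vale.Agent.P327

open Nat.Partrec (Code)
open Encodable

theorem TR.refl (A : Rl) : TR A A := Tot.ora

theorem TR.trans {A B C : Rl} (h : TR A B) (h' : TR B C) : TR A C :=
  Nat.RecursiveIn.subst h (by
    intro g hg
    rw [Set.mem_singleton_iff] at hg
    rw [hg]; exact h')

theorem TR_comp (A : Rl) {q : ℕ → ℕ} (hq : Computable q) : TR (fun n => A (q n)) A :=
  Tot.ora.comp (Tot.of_computable hq)

/-- post-processing of finitely many queries -/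
theorem Tot.post {B : Rl} {f : ℕ → ℕ} (hf : Tot B f) {F : ℕ → Bool} (hF : Computable F) :
    Tot B (fun n => (F (f n)).toNat) :=
  (Tot.of_computable (f := fun n => (F n).toNat)
    (Computable.cond hF (Computable.const 1) (Computable.const 0) |>.of_eq (fun n => by
      cases F n <;> rfl))).comp hf

theorem computable_ofNat : Computable (fun n : ℕ => decide (n = 1)) :=
  (Primrec.eq.comp Primrec.id (Primrec.const 1)).decide.to_comp

theorem toNat_eq_one (b : Bool) : decide (b.toNat = 1) = b := by cases b <;> rfl

theorem computable_fst' : Computable (fun m : ℕ => m.unpair.1) :=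
  Computable.fst.comp Computable.unpair

theorem computable_snd' : Computable (fun m : ℕ => m.unpair.2) :=
  Computable.snd.comp Computable.unpair

/-- decoding of a number and four bits -/
def dc (m : ℕ) : ℕ × Bool × Bool × Bool × Bool :=
  (m.unpair.1, decide (m.unpair.2.unpair.1 = 1), decide (m.unpair.2.unpair.2.unpair.1 = 1),
    decide (m.unpair.2.unpair.2.unpair.2.unpair.1 = 1),
    decide (m.unpair.2.unpair.2.unpair.2.unpair.2 = 1))

theorem computable_dc : Computable dc := by
  have s2 : Computable (fun m : ℕ => m.unpair.2.unpair.2) := computable_snd'.comp computable_snd'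
  have s3 : Computable (fun m : ℕ => m.unpair.2.unpair.2.unpair.2) := computable_snd'.comp s2
  have c1 : Computable (fun m : ℕ => decide (m.unpair.2.unpair.1 = 1)) :=
    computable_ofNat.comp (computable_fst'.comp computable_snd')
  have c2 : Computable (fun m : ℕ => decide (m.unpair.2.unpair.2.unpair.1 = 1)) :=
    computable_ofNat.comp (computable_fst'.comp s2)
  have c3 : Computable (fun m : ℕ => decide (m.unpair.2.unpair.2.unpair.2.unpair.1 = 1)) :=
    computable_ofNat.comp (computable_fst'.comp s3)
  have c4 : Computable (fun m : ℕ => decide (m.unpair.2.unpair.2.unpair.2.unpair.2 = 1)) :=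
    computable_ofNat.comp (computable_snd'.comp s3)
  exact computable_fst'.pair (c1.pair (c2.pair (c3.pair c4)))

theorem dc_pair (n : ℕ) (b1 b2 b3 b4 : Bool) :
    dc (Nat.pair n (Nat.pair b1.toNat (Nat.pair b2.toNat (Nat.pair b3.toNat b4.toNat)))) =
      (n, b1, b2, b3, b4) := by
  simp only [dc, Nat.unpair_pair, toNat_eq_one]

theorem TR_tt_aux (A : Rl) (f : ℕ → ℕ) (q : ℕ → ℕ × Bool × Bool × Bool × Bool)
    (H : ℕ × Bool × Bool × Bool × Bool → Bool) (hf : Tot A f) (hq : ∀ n, dc (f n) = q n)
    (hH : Computable H) : TR (fun n => H (q n)) A := by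
  have hF : Computable (fun m => H (dc m)) := Computable.comp hH computable_dc
  have t5 := hf.post hF
  refine TR_iff.2 (t5.of_eq (fun n => ?_))
  rw [hq]

/-- bounded truth table reductions with four queries -/
theorem TR_tt (A : Rl) (q1 q2 q3 q4 : ℕ → ℕ) (h : ℕ → Bool → Bool → Bool → Bool → Bool)
    (h1 : Computable q1) (h2 : Computable q2) (h3 : Computable q3) (h4 : Computable q4)
    (hh : Computable fun p : ℕ × Bool × Bool × Bool × Bool =>
      h p.1 p.2.1 p.2.2.1 p.2.2.2.1 p.2.2.2.2) :
    TR (fun n => h n (A (q1 n)) (A (q2 n)) (A (q3 n)) (A (q4 n))) A := by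
  have t1 : Tot A (fun n => (A (q1 n)).toNat) := Tot.ora.comp (Tot.of_computable h1)
  have t2 : Tot A (fun n => (A (q2 n)).toNat) := Tot.ora.comp (Tot.of_computable h2)
  have t3 : Tot A (fun n => (A (q3 n)).toNat) := Tot.ora.comp (Tot.of_computable h3)
  have t4 : Tot A (fun n => (A (q4 n)).toNat) := Tot.ora.comp (Tot.of_computable h4)
  have t := (Tot.of_computable (B := A) Computable.id).pair (t1.pair (t2.pair (t3.pair t4)))
  exact TR_tt_aux A _ (fun n => (n, A (q1 n), A (q2 n), A (q3 n), A (q4 n))) _ t
    (fun n => dc_pair n _ _ _ _) hh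

theorem computable_even : Computable (fun n : ℕ => 2 * n) :=
  (Primrec.nat_mul.comp (Primrec.const 2) Primrec.id).to_comp

theorem computable_odd : Computable (fun n : ℕ => 2 * n + 1) :=
  Computable.succ.comp computable_even

theorem TR_jn_left (A B : Rl) : TR A (jn A B) := by
  have := TR_comp (jn A B) computable_even
  simpa only [jn_even] using this

theorem TR_jn_right (A B : Rl) : TR B (jn A B) := by
  have := TR_comp (jn A B) computable_odd
  simpa only [jn_odd] using this

theorem jn_TR {A B C : Rl} (h : TR A C) (h' : TR B C) : TR (jn A B) C := by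
  have hd : Tot C (fun n => n.div2) := Tot.of_computable Primrec.nat_div2.to_comp
  have t1 : Tot C (fun n => (A n.div2).toNat) := (TR_iff.1 h).comp hd
  have t2 : Tot C (fun n => (B n.div2).toNat) := (TR_iff.1 h').comp hd
  have t := (Tot.of_computable (B := C) Computable.id).pair (t1.pair t2)
  let F : ℕ → Bool := fun m => cond m.unpair.1.bodd (decide (m.unpair.2.unpair.2 = 1))
    (decide (m.unpair.2.unpair.1 = 1))
  have e1 : Computable (fun m : ℕ => m.unpair.1) := Computable.fst.comp Computable.unpair
  have e2 : Computable (fun m : ℕ => m.unpair.2) := Computable.snd.comp Computable.unpair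
  have hF : Computable F :=
    Computable.cond (Primrec.nat_bodd.to_comp.comp e1) (computable_ofNat.comp (e2.comp e2))
      (computable_ofNat.comp (e1.comp e2))
  refine TR_iff.2 ((t.post hF).of_eq (fun n => ?_))
  simp only [F, Nat.unpair_pair, toNat_eq_one, id]
  rfl

theorem TR_const (b : Bool) (A : Rl) : TR (fun _ => b) A :=
  TR_iff.2 (Tot.of_computable (Computable.const _))

theorem TR_of_computable {F : Rl} (h : Computable F) (A : Rl) : TR F A := by
  have := (Tot.of_computable (B := A) Computable.id).post h
  exact this

/-- truth table reductions whose table depends on one decidable condition -/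
theorem TR_tt' (A : Rl) {q1 q2 q3 q4 : ℕ → ℕ} (d : ℕ → Bool) (F1 F2 : Bool × Bool × Bool × Bool → Bool)
    (hd : Computable d)
    (h1 : Computable q1) (h2 : Computable q2) (h3 : Computable q3) (h4 : Computable q4) :
    TR (fun n => cond (d n) (F1 (A (q1 n), A (q2 n), A (q3 n), A (q4 n)))
      (F2 (A (q1 n), A (q2 n), A (q3 n), A (q4 n)))) A :=
  TR_tt A q1 q2 q3 q4 (fun n a b c e => cond (d n) (F1 (a, b, c, e)) (F2 (a, b, c, e)))
    h1 h2 h3 h4
    (Computable.cond (hd.comp Computable.fst)
      ((Primrec.dom_finite F1).to_comp.comp Computable.snd)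
      ((Primrec.dom_finite F2).to_comp.comp Computable.snd))

theorem TR_xr (A B : Rl) : TR (xr A B) (jn A B) := by
  have := TR_tt (jn A B) (fun n => 2 * n) (fun n => 2 * n + 1) (fun n => n) (fun n => n)
    (fun _ a b _ _ => xor a b) computable_even computable_odd Computable.id Computable.id
    ((Primrec.dom_finite fun p : Bool × Bool × Bool × Bool => xor p.1 p.2.1).comp
      Primrec.snd).to_comp
  simp only [jn_even, jn_odd] at this
  exact this

theorem computable_mem (s : Finset ℕ) : Computable (fun n => decide (n ∈ s)) := by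
  induction s using Finset.induction_on with
  | empty => exact (Computable.const false).of_eq (fun n => by simp)
  | insert a s _ ih =>
    have h1 : Computable (fun n : ℕ => decide (n = a)) :=
      (Primrec.eq.comp Primrec.id (Primrec.const a)).decide.to_comp
    exact (Computable.cond h1 (Computable.const true) ih).of_eq (fun n => by
      by_cases h : n = a <;> simp [h])

theorem TR_mod {A B : Rl} (h : {n | A n ≠ B n}.Finite) : TR A B := by
  have := TR_tt' B (q1 := fun n => n) (q2 := fun n => n) (q3 := fun n => n) (q4 := fun n => n)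
    (fun n => decide (n ∈ h.toFinset)) (fun p => !p.1) (fun p => p.1) (computable_mem _)
    Computable.id Computable.id Computable.id Computable.id
  have e : A = fun n => cond (decide (n ∈ h.toFinset)) (!B n) (B n) := by
    funext n
    by_cases hn : A n = B n
    · have : n ∉ h.toFinset := by simp [hn]
      simp [this, hn]
    · have : n ∈ h.toFinset := by simp [hn]
      rw [decide_eq_true this]
      simp only [cond_true]
      exact Bool.eq_not.2 hn
  rw [e]
  exact this

theorem computable_pair {f g : ℕ → ℕ} (hf : Computable f) (hg : Computable g) :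
    Computable (fun n => Nat.pair (f n) (g n)) :=
  Primrec₂.natPair.to_comp.comp hf hg

theorem TR_member (X : ℕ → Rl) (i : ℕ) : TR (X i) (cd X) := by
  have := TR_comp (cd X) (computable_pair (Computable.const i) Computable.id)
  simp only [cd, Nat.unpair_pair] at this
  exact this

theorem cd_cs_TR (U : Rl) (V : ℕ → Rl) : TR (cd (cs U V)) (jn U (cd V)) := by
  let q : ℕ → ℕ := fun n => cond (decide (n.unpair.1 = 0)) (2 * n.unpair.2)
    (2 * Nat.pair n.unpair.1.pred n.unpair.2 + 1)
  have hq : Computable q := by
    refine Computable.cond ?_ ?_ ?_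
    · exact ((Primrec.eq.comp Primrec.id (Primrec.const 0)).decide.to_comp).comp computable_fst'
    · exact computable_even.comp computable_snd'
    · exact computable_odd.comp (computable_pair (Primrec.pred.to_comp.comp computable_fst')
        computable_snd')
  have := TR_comp (jn U (cd V)) hq
  have e : cd (cs U V) = fun n => jn U (cd V) (q n) := by
    funext n
    simp only [q, cd]
    cases h : n.unpair.1 with
    | zero => simp [jn_even, cs]
    | succ k => simp [jn_odd, cs, cd]
  rw [e]
  exact this

theorem TR_cd_cs_left (U : Rl) (V : ℕ → Rl) : TR U (cd (cs U V)) := TR_member (cs U V) 0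

theorem TR_cd_cs_right (U : Rl) (V : ℕ → Rl) : TR (cd V) (cd (cs U V)) := by
  have := TR_comp (cd (cs U V)) (computable_pair (Computable.succ.comp computable_fst')
    computable_snd')
  simp only [cd, Nat.unpair_pair, cs] at this
  exact this

theorem TR_cd_del (i : ℕ) (X : ℕ → Rl) : TR (cd (del i X)) (cd X) := by
  have hd : Computable (fun n : ℕ => decide (n.unpair.1 = i)) :=
    ((Primrec.eq.comp Primrec.id (Primrec.const i)).decide.to_comp).comp computable_fst'
  have := TR_tt' (cd X) (q1 := fun n => n) (q2 := fun n => n) (q3 := fun n => n)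
    (q4 := fun n => n) (fun n => decide (n.unpair.1 = i)) (fun _ => false) (fun p => p.1) hd
    Computable.id Computable.id Computable.id Computable.id
  have e : cd (del i X) = fun n => cond (decide (n.unpair.1 = i)) false (cd X n) := by
    funext n
    simp only [cd, del]
    by_cases h : n.unpair.1 = i
    · rw [h]; simp
    · simp [h]
  rw [e]
  exact this

theorem TR_and_fst (A B : Rl) : TR (fun n => A n.unpair.1 && B n) (jn A B) := by
  have := TR_tt' (jn A B) (q1 := fun n => 2 * n.unpair.1) (q2 := fun n => 2 * n + 1)
    (q3 := fun n => n) (q4 := fun n => n) (fun _ => true) (fun p => p.1 && p.2.1)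
    (fun p => p.1) (Computable.const true)
    (computable_even.comp computable_fst') computable_odd Computable.id Computable.id
  simp only [jn_even, jn_odd, cond_true] at this
  exact this

/-- labelled column action -/
def act (t : ℕ → ℕ) (Y X : Rl) : Rl := fun n =>
  cond (Y (2 * n.unpair.1))
    (cond (Y (2 * n.unpair.1 + 1))
      (if n.unpair.2 = 1 then xor (X (Nat.pair n.unpair.1 1)) (!X (Nat.pair n.unpair.1 0)) else X n)
      (if n.unpair.2 = 1 then xor (X (Nat.pair n.unpair.1 1)) (X (Nat.pair n.unpair.1 0)) else X n))
    (cond (Y (2 * n.unpair.1 + 1)) (X (Nat.pair n.unpair.1 (t n.unpair.2))) (X n))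

/-- auxiliary part of the action -/
def act1 (Y X : Rl) : Rl := fun n =>
  cond (decide (n.unpair.2 = 1))
    (cond (Y (2 * n.unpair.1))
      (cond (Y (2 * n.unpair.1 + 1)) (xor (X n) (!X (Nat.pair n.unpair.1 0)))
        (xor (X n) (X (Nat.pair n.unpair.1 0)))) (X n)) (X n)

theorem act_eq (t : ℕ → ℕ) (Y X : Rl) : act t Y X = fun n =>
    cond (Y (2 * n.unpair.1)) (act1 Y X n)
      (cond (Y (2 * n.unpair.1 + 1)) (X (Nat.pair n.unpair.1 (t n.unpair.2))) (X n)) := by
  funext n
  unfold act act1
  cases h1 : Y (2 * n.unpair.1) with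
  | false => rfl
  | true =>
    simp only [cond_true]
    by_cases h : n.unpair.2 = 1
    · have e : Nat.pair n.unpair.1 1 = n := by rw [← h, Nat.pair_unpair]
      simp only [h, e, if_true, decide_true, cond_true]
    · simp only [h, if_false, decide_false, cond_false]
      cases Y (2 * n.unpair.1 + 1) <;> rfl

theorem TR_act1 (Y X : Rl) : TR (act1 Y X) (jn X Y) := by
  have hd : Computable (fun n : ℕ => decide (n.unpair.2 = 1)) :=
    computable_ofNat.comp computable_snd'
  have := TR_tt' (jn X Y) (q1 := fun n => 2 * (2 * n.unpair.1) + 1)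
    (q2 := fun n => 2 * (2 * n.unpair.1 + 1) + 1)
    (q3 := fun n => 2 * n) (q4 := fun n => 2 * Nat.pair n.unpair.1 0)
    (fun n => decide (n.unpair.2 = 1))
    (fun p => cond p.1 (cond p.2.1 (xor p.2.2.1 (!p.2.2.2)) (xor p.2.2.1 p.2.2.2)) p.2.2.1)
    (fun p => p.2.2.1) hd
    (computable_odd.comp (computable_even.comp computable_fst'))
    (computable_odd.comp (computable_odd.comp computable_fst'))
    computable_even
    (computable_even.comp (computable_pair computable_fst' (Computable.const 0)))
  simp only [jn_even, jn_odd] at this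
  exact this

theorem TR_act {t : ℕ → ℕ} (ht : Computable t) (Y X : Rl) : TR (act t Y X) (jn X Y) := by
  let E : Rl := fun n => X (Nat.pair n.unpair.1 (t n.unpair.2))
  have hE : TR E (jn X Y) := by
    have := TR_comp (jn X Y)
      (computable_even.comp (computable_pair computable_fst' (ht.comp computable_snd')))
    simp only [jn_even] at this
    exact this
  -- first combine `E` and `X`
  let E1 : Rl := fun n => cond (Y (2 * n.unpair.1 + 1)) (E n) (X n)
  have hE1 : TR E1 (jn X Y) := by
    have := TR_tt' (jn (jn X Y) E) (q1 := fun n => 2 * (2 * (2 * n.unpair.1 + 1) + 1))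
      (q2 := fun n => 2 * n + 1) (q3 := fun n => 2 * (2 * n)) (q4 := fun n => n)
      (fun _ => true) (fun p => cond p.1 p.2.1 p.2.2.1) (fun p => p.1) (Computable.const true)
      (computable_even.comp (computable_odd.comp (computable_odd.comp computable_fst')))
      computable_odd (computable_even.comp computable_even) Computable.id
    simp only [jn_even, jn_odd, cond_true] at this
    exact TR.trans this (jn_TR (TR.refl _) hE)
  have h2 := TR_tt' (jn (jn X Y) (jn (act1 Y X) E1))
    (q1 := fun n => 2 * (2 * (2 * n.unpair.1) + 1))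
    (q2 := fun n => 2 * (2 * n) + 1) (q3 := fun n => 2 * (2 * n + 1) + 1) (q4 := fun n => n)
    (fun _ => true) (fun p => cond p.1 p.2.1 p.2.2.1) (fun p => p.1) (Computable.const true)
    (computable_even.comp (computable_odd.comp (computable_even.comp computable_fst')))
    (computable_odd.comp computable_even) (computable_odd.comp computable_odd) Computable.id
  simp only [jn_even, jn_odd, cond_true] at h2
  rw [act_eq]
  exact TR.trans h2 (jn_TR (TR.refl _) (jn_TR (TR_act1 Y X) hE1))

end Vale.Agent.P327
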