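import Vale.Agent.P327.Base

/-!
Automorphisms, Step A.
-/

namespace Vale.Agent.P327

open Nat.Partrec (Code)
open Filter Topology

namespace Aut

variable (a : Aut)

theorem f_mono {A B : Rl} (h : TR A B) : TR (a.f A) (a.f B) := (a.mono A B).1 h

theorem g_mono {A B : Rl} (h : TR A B) : TR (a.g A) (a.g B) :=
  (a.mono _ _).2 (((a.fg1 A).trans h).trans (a.fg2 B))

/-- the inverse automorphism -/
def symm : Aut where
  f := a.g
  g := a.f
  mono A B := ⟨a.g_mono, fun h => ((a.fg2 A).trans (a.f_mono h)).trans (a.fg1 B)⟩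
  gf1 := a.fg1
  gf2 := a.fg2
  fg1 := a.gf1
  fg2 := a.gf2

@[simp] theorem symm_f : a.symm.f = a.g := rfl
@[simp] theorem symm_g : a.symm.g = a.f := rfl

theorem f_iff_g {A B : Rl} : TR (a.f A) B ↔ TR A (a.g B) :=
  ⟨fun h => (a.gf2 A).trans (a.g_mono h), fun h => (a.f_mono h).trans (a.fg1 B)⟩

theorem g_iff_f {A B : Rl} : TR (a.g A) B ↔ TR A (a.f B) := a.symm.f_iff_g

theorem f_jn (A B : Rl) : TR (a.f (jn A B)) (jn (a.f A) (a.f B)) :=
  a.f_iff_g.2 (jn_TR (a.f_iff_g.1 (TR_jn_left _ _)) (a.f_iff_g.1 (TR_jn_right _ _)))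

theorem g_jn (A B : Rl) : TR (a.g (jn A B)) (jn (a.g A) (a.g B)) := a.symm.f_jn A B

end Aut

theorem jn_mono {A B C D : Rl} (h : TR A C) (h' : TR B D) : TR (jn A B) (jn C D) :=
  jn_TR (h.trans (TR_jn_left _ _)) (h'.trans (TR_jn_right _ _))

section A

variable (G : ℕ → Rl)

/-- the real coding `X` through the sequence `G` -/
def RX (X : Rl) : Rl := fun n => X n.unpair.1 && cd G n

theorem RX_le (X : Rl) : TR (RX G X) (jn X (cd G)) := TR_and_fst X (cd G)

theorem le_RX {X : Rl} {i : ℕ} (h : X i = true) : TR (G i) (RX G X) := by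
  have : G i = fun n => RX G X (Nat.pair i n) := by
    funext n; simp [RX, cd, h]
  rw [this]
  exact TR_comp _ (Primrec₂.natPair.comp (Primrec.const i) Primrec.id).to_comp

theorem RX_le' {X : Rl} {i : ℕ} (h : X i = false) : TR (RX G X) (jn X (cd (del i G))) := by
  have : RX G X = fun n => X n.unpair.1 && cd (del i G) n := by
    funext n
    by_cases hn : n.unpair.1 = i
    · simp [RX, hn, h]
    · simp [RX, cd, del, Function.update_of_ne hn]
  rw [this]
  exact TR_and_fst _ _

/-- the Borel decoding functions -/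
noncomputable def Lam (a : Aut) (c : Code) (W : Rl) : Rl := fun i =>
  open Classical in decide (TR (a.f (G i)) (phiTot c (jn W (a.f (cd G)))))

theorem stepA (a : Aut) {X W : Rl} (h : ∀ i, ¬ TR (G i) (jn X (cd (del i G))))
    (hW : TR (a.f X) W) : ∃ c, X = Lam G a c W := by
  have h1 : TR (a.f (RX G X)) (jn W (a.f (cd G))) :=
    ((a.f_mono (RX_le G X)).trans (a.f_jn _ _)).trans (jn_mono hW (TR.refl _))
  obtain ⟨c, hc⟩ := exists_phi h1
  refine ⟨c, ?_⟩
  funext i
  have h2 : phiTot c (jn W (a.f (cd G))) = a.f (RX G X) := phiTot_eq hc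
  have h3 : TR (a.f (G i)) (a.f (RX G X)) ↔ X i = true := by
    rw [← a.mono]
    constructor
    · intro h4
      by_contra h5
      have h6 : X i = false := by simpa using h5
      exact h i (h4.trans (RX_le' G h6))
    · exact le_RX G
  unfold Lam
  rw [h2]
  simp only [h3]
  cases hX : X i <;> simp

theorem measurable_TR_left (A : Rl) {α : Type*} [MeasurableSpace α] {F : α → Rl}
    (hF : Measurable F) : MeasurableSet {x | TR A (F x)} := by
  have : Measurable fun x => ((A, F x) : Rl × Rl) := measurable_const.prodMk hF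
  exact this measurableSet_TR

theorem measurable_Lam (a : Aut) (c : Code) : Measurable (Lam G a c) := by
  refine measurable_pi_iff.2 (fun i => ?_)
  refine measurable_to_bool ?_
  have h1 : Measurable fun W : Rl => phiTot c (jn W (a.f (cd G))) := by
    refine (measurable_phiTot c).comp ?_
    exact measurable_jn.comp (measurable_id.prodMk measurable_const)
  have h2 := measurable_TR_left (a.f (G i)) h1
  convert h2 using 1
  ext W
  simp [Lam]

/-- genericity condition for (A1) -/
def CA (a : Aut) : Set Rl := {X | ∀ i, ¬ TR (a.g (G i)) (jn X (a.g (cd (del i G))))}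

/-- the countable family of Borel functions capturing `f` -/
noncomputable def Lc (a : Aut) (c : Code) : Rl → Rl := Lam G a.symm c

theorem measurable_Lc (a : Aut) (c : Code) : Measurable (Lc G a c) := measurable_Lam G _ c

theorem stepA1 (a : Aut) {X : Rl} (hX : X ∈ CA G a) : ∃ c, a.f X = Lc G a c X := by
  refine stepA G a.symm (X := a.f X) (W := X) ?_ (a.gf1 X)
  intro i h
  refine hX i ?_
  exact ((a.g_mono h).trans (a.g_jn _ _)).trans (jn_mono (a.gf1 X) (TR.refl _))

theorem CA_residual (hG : ∀ i, ¬ TR (G i) (cd (del i G))) (a : Aut) :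
    ∀ᶠ X in residual Rl, X ∈ CA G a := by
  have h1 : ∀ i, ∀ᶠ X in residual Rl, ¬ TR (a.g (G i)) (jn (a.g (cd (del i G))) X) := by
    intro i
    refine lemS ?_
    intro h
    exact hG i ((a.symm.mono _ _).2 h)
  refine (eventually_countable_forall.2 h1).mono ?_
  intro X hX i h
  exact hX i (h.trans (jn_TR (TR_jn_right _ _) (TR_jn_left _ _)))

theorem CA_down (a : Aut) {X P : Rl} (hX : X ∈ CA G a) (hP : TR P X) : P ∈ CA G a := by
  intro i h
  exact hX i (h.trans (jn_mono hP (TR.refl _)))

theorem stepA2 (hG : ∀ i, ¬ TR (G i) (cd (del i G))) (a : Aut) :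
    ∀ᶠ U in residual Rl, ∀ W, TR (a.f U) W → ∃ c, U = Lam G a c W := by
  have h1 : ∀ i, ∀ᶠ X in residual Rl, ¬ TR (G i) (jn (cd (del i G)) X) := fun i => lemS (hG i)
  refine (eventually_countable_forall.2 h1).mono ?_
  intro X hX W hW
  refine stepA G a ?_ hW
  intro i h
  exact hX i (h.trans (jn_TR (TR_jn_right _ _) (TR_jn_left _ _)))

end A

end Vale.Agent.P327
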