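import Vale.Agent.P327.StepA

/-!
Step B: a category diagonalisation over sequences of reals.
-/

namespace Vale.Agent.P327

open Nat.Partrec (Code)
open Filter Topology

/-- the zero sequence -/
def z0 : ℕ → Rl := fun _ _ => false

theorem TR_cd_z0 (A : Rl) : TR (cd z0) A := TR_const false A

/-- Turing equivalence -/
def TE (A B : Rl) : Prop := TR A B ∧ TR B A

section B

variable (G : ℕ → Rl) (a : Aut)

/-- states of the construction: `h` inserts the reals chosen so far in front of a sequence -/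
structure St (C0 : Set (ℕ → Rl)) where
  h : (ℕ → Rl) → (ℕ → Rl)
  hcont : Continuous h
  h1 : ∀ V, TR (cd (h V)) (jn (cd (h z0)) (cd V))
  h2 : ∀ V, TR (cd (h z0)) (cd (h V))
  h3 : ∀ V, TR (cd V) (cd (h V))
  N : Set (ℕ → Rl)
  Nclopen : IsClopen N
  Nne : N.Nonempty
  O : ℕ → Set (ℕ → Rl)
  Oopen : ∀ m, IsOpen (O m)
  Odense : ∀ᶠ V in residual (ℕ → Rl), V ∈ N → ∀ m, V ∈ O m
  good : ∀ V, V ∈ N → (∀ m, V ∈ O m) → h V ∈ C0

variable {C0 : Set (ℕ → Rl)}

/-- candidate values for the finite part -/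
noncomputable def Kc (s : St C0) (c : Code) (U : Rl) : Rl := Lc G a c (cd (s.h (cs U z0)))

/-- candidate value for the whole sequence -/
noncomputable def Ee (s : St C0) (e : Code) (V : ℕ → Rl) : Rl := Lc G a e (cd (s.h V))

/-- `c` is the right index for the finite part, judged from the value with index `e` -/
def Rt (s : St C0) (e c : Code) : Set (ℕ → Rl) :=
  {V | TR (Kc G a s c (V 0)) (Ee G a s e V) ∧
    ∀ c', TR (Kc G a s c' (V 0)) (Ee G a s e V) → TR (Kc G a s c' (V 0)) (Kc G a s c (V 0))}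

theorem measurable_Kc (s : St C0) (c : Code) : Measurable (Kc G a s c) := by
  refine (measurable_Lc G a c).comp ?_
  refine (continuous_cd.comp (s.hcont.comp ?_)).measurable
  exact continuous_cs.comp (continuous_id.prodMk continuous_const)

theorem measurable_Ee (s : St C0) (c : Code) : Measurable (Ee G a s c) := by
  refine (measurable_Lc G a c).comp ?_
  exact (continuous_cd.comp s.hcont).measurable

theorem measurable_TR2 {α : Type*} [MeasurableSpace α] {F H : α → Rl}
    (hF : Measurable F) (hH : Measurable H) : MeasurableSet {x | TR (F x) (H x)} :=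
  (hF.prodMk hH) measurableSet_TR

theorem measurableSet_Rt (s : St C0) (e c : Code) : MeasurableSet (Rt G a s e c) := by
  have h0 : Measurable fun V : ℕ → Rl => V 0 := measurable_pi_apply 0
  have h1 : ∀ c, Measurable fun V : ℕ → Rl => Kc G a s c (V 0) := fun c =>
    (measurable_Kc G a s c).comp h0
  have h2 := measurable_Ee G a s e
  refine MeasurableSet.inter (measurable_TR2 (h1 c) h2) ?_
  have : {V : ℕ → Rl | ∀ c', TR (Kc G a s c' (V 0)) (Ee G a s e V) →
      TR (Kc G a s c' (V 0)) (Kc G a s c (V 0))} = ⋂ c',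
      ({V : ℕ → Rl | TR (Kc G a s c' (V 0)) (Ee G a s e V)}ᶜ ∪
        {V : ℕ → Rl | TR (Kc G a s c' (V 0)) (Kc G a s c (V 0))}) := by
    ext V
    simp only [Set.mem_ofPred_eq, Set.mem_iInter, Set.mem_union, Set.mem_compl_iff]
    exact forall_congr' fun c' => imp_iff_not_or
  change MeasurableSet {V : ℕ → Rl | ∀ c', TR (Kc G a s c' (V 0)) (Ee G a s e V) →
      TR (Kc G a s c' (V 0)) (Kc G a s c (V 0))}
  rw [this]
  exact MeasurableSet.iInter fun c' => (measurable_TR2 (h1 c') h2).compl.union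
    (measurable_TR2 (h1 c') (h1 c))

/-- the alternatives -/
def Zs (s : St C0) (e : Code) : Option Code → Set (ℕ → Rl)
  | some c => Rt G a s e c
  | none => ⋂ c, (Rt G a s e c)ᶜ

theorem measurableSet_Zs (s : St C0) (e : Code) (o : Option Code) :
    MeasurableSet (Zs G a s e o) := by
  cases o with
  | some c => exact measurableSet_Rt G a s e c
  | none => exact MeasurableSet.iInter fun c => (measurableSet_Rt G a s e c).compl

theorem exists_Zs (s : St C0) (e : Code) (V : ℕ → Rl) : ∃ o, V ∈ Zs G a s e o := by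
  by_cases h : ∃ c, V ∈ Rt G a s e c
  · obtain ⟨c, hc⟩ := h; exact ⟨some c, hc⟩
  · refine ⟨none, ?_⟩
    simp only [Zs, Set.mem_iInter, Set.mem_compl_iff]
    exact fun c hc => h ⟨c, hc⟩

/-- one step of the construction -/
structure IsStep (s : St C0) (e : Code) (U : Rl) (s' : St C0) : Prop where
  i : ∀ V, V ∈ s'.N → cs U V ∈ s.N ∧ cs U V ∈ s.O 0
  ii : ∀ m V, V ∈ s'.O m → cs U V ∈ s.O (m + 1)
  iii : ∀ V, s'.h V = s.h (cs U V)
  iv : ∀ V, V ∈ s'.N → (∀ m, V ∈ s'.O m) →
    (∀ c', TR (Kc G a s c' U) (a.f (cd (s'.h V))) → TR (Kc G a s c' U) (a.f (cd (s'.h z0)))) ∧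
    ∃ o, cs U V ∈ Zs G a s e o ∧
      ∀ c, o = some c → ¬ TE (Kc G a s c U) (a.f (jn (cd (s.h z0)) U))

/-- the contradiction hypothesis -/
def Bad (C0 : Set (ℕ → Rl)) : Prop :=
  ∀ X ∈ C0, ∀ P, TR P (cd X) → ∀ F : Rl → Rl, Measurable F → ∀ O : Set Rl, IsOpen O → O.Nonempty →
    ¬ ∀ᶠ U in residual Rl, U ∈ O → TE (F U) (a.f (jn P U))

theorem exists_mem_of_residual {X : Type*} [TopologicalSpace X] [BaireSpace X] {p : X → Prop}
    (h : ∀ᶠ x in residual X, p x) {O : Set X} (hO : IsOpen O) (hne : O.Nonempty) :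
    ∃ x ∈ O, p x := by
  obtain ⟨x, hx, hp⟩ := (dense_of_mem_residual h).inter_open_nonempty O hO hne
  exact ⟨x, hx, hp⟩

theorem exists_open_seq {X : Type*} [TopologicalSpace X] [BaireSpace X] {p : X → Prop}
    (h : ∀ᶠ x in residual X, p x) :
    ∃ D : ℕ → Set X, (∀ m, IsOpen (D m)) ∧ (∀ᶠ x in residual X, ∀ m, x ∈ D m) ∧
      ∀ x, (∀ m, x ∈ D m) → p x := by
  obtain ⟨t, ht, hd, hp⟩ := eventually_residual.1 h
  obtain ⟨D, hD, rfl⟩ := ht.eq_iInter_nat
  refine ⟨D, hD, ?_, fun x hx => hp x (Set.mem_iInter.2 hx)⟩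
  have := residual_of_dense_Gδ ht hd
  filter_upwards [this] with x hx
  exact Set.mem_iInter.1 hx

/-- the next state -/
def nextSt (s : St C0) (U : Rl) (N2 : Set (ℕ → Rl)) (hN2 : IsClopen N2) (hne : N2.Nonempty)
    (hsub : ∀ V, V ∈ N2 → cs U V ∈ s.N ∧ cs U V ∈ s.O 0)
    (hd : ∀ᶠ V in residual (ℕ → Rl), cs U V ∈ s.N → ∀ m, cs U V ∈ s.O m)
    (D : ℕ → Set (ℕ → Rl)) (hD : ∀ m, IsOpen (D m))
    (hDd : ∀ᶠ V in residual (ℕ → Rl), ∀ m, V ∈ D m) : St C0 where
  h V := s.h (cs U V)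
  hcont := s.hcont.comp (continuous_cs.comp (continuous_const.prodMk continuous_id))
  h1 V := by
    have e1 := s.h1 (cs U V)
    have e2 : TR (cd (s.h z0)) (cd (s.h (cs U z0))) := s.h2 _
    have e3 : TR U (cd (s.h (cs U z0))) := (TR_cd_cs_left U z0).trans (s.h3 _)
    refine e1.trans (jn_TR (e2.trans (TR_jn_left _ _)) ?_)
    refine (cd_cs_TR U V).trans (jn_mono e3 (TR.refl _))
  h2 V := by
    have e1 := s.h1 (cs U z0)
    have e2 : TR (cd (s.h z0)) (cd (s.h (cs U V))) := s.h2 _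
    have e3 : TR U (cd (s.h (cs U V))) := (TR_cd_cs_left U V).trans (s.h3 _)
    refine e1.trans (jn_TR e2 ?_)
    exact (cd_cs_TR U z0).trans (jn_TR e3 (TR_cd_z0 _))
  h3 V := (TR_cd_cs_right U V).trans (s.h3 _)
  N := N2
  Nclopen := hN2
  Nne := hne
  O m := {V | cs U V ∈ s.O (m + 1)} ∩ D m
  Oopen m := by
    refine IsOpen.inter ?_ (hD m)
    exact (s.Oopen (m + 1)).preimage (continuous_cs.comp (continuous_const.prodMk continuous_id))
  Odense := by
    filter_upwards [hd, hDd] with V h1 h2 hV m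
    exact ⟨h1 (hsub V hV).1 _, h2 m⟩
  good V hV hm := by
    refine s.good _ (hsub V hV).1 ?_
    intro m
    cases m with
    | zero => exact (hsub V hV).2
    | succ m => exact (hm m).1

theorem exists_step (hbad : Bad a C0) (s : St C0) (e : Code) :
    ∃ U s', IsStep G a s e U s' := by
  -- the open set in which we work
  have hN0 : IsOpen (s.N ∩ s.O 0) := s.Nclopen.isOpen.inter (s.Oopen 0)
  have hN0ne : (s.N ∩ s.O 0).Nonempty := by
    obtain ⟨V, hV, hV2⟩ := exists_mem_of_residual s.Odense s.Nclopen.isOpen s.Nne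
    exact ⟨V, hV, hV2 hV 0⟩
  obtain ⟨o, N1, hN1, hN1o, hN1ne, hZ⟩ := pigeon (Zs G a s e) (measurableSet_Zs G a s e) _ hN0 hN0ne
    (Eventually.of_forall fun V _ => exists_Zs G a s e V)
  -- a box
  obtain ⟨V1, hV1⟩ := hN1ne
  have hV1' : csHomeo.symm V1 ∈ csHomeo ⁻¹' N1 := by simpa using hV1
  obtain ⟨OU, OV, hOU, hOV, hU1, hV1m, hbox⟩ :=
    isOpen_prod_iff.1 (hN1o.preimage csHomeo.continuous) _ _ hV1'
  obtain ⟨N2, hN2, hN2m, hN2sub⟩ := compact_exists_isClopen_in_isOpen hOV hV1m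
  have hbox' : ∀ U ∈ OU, ∀ V ∈ N2, cs U V ∈ N1 := by
    intro U hU V hV
    have := hbox (Set.mk_mem_prod hU (hN2sub hV))
    simpa [csHomeo_apply] using this
  -- sections
  have hsec : ∀ᶠ U in residual Rl, ∀ᶠ V in residual (ℕ → Rl),
      (cs U V ∈ N1 → cs U V ∈ Zs G a s e o) ∧ (cs U V ∈ s.N → ∀ m, cs U V ∈ s.O m) := by
    refine ku (p := fun U V =>
      (cs U V ∈ N1 → cs U V ∈ Zs G a s e o) ∧ (cs U V ∈ s.N → ∀ m, cs U V ∈ s.O m)) ?_
    have h1 := hZ.and s.Odense
    have h2 := (tendsto_residual_of_isOpenMap csHomeo.continuous csHomeo.isOpenMap).eventually h1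
    simpa only [csHomeo_apply] using h2
  -- choice of U
  have hfreq : ∃ᶠ U in residual Rl, U ∈ OU ∧
      ∀ c, o = some c → ¬ TE (Kc G a s c U) (a.f (jn (cd (s.h z0)) U)) := by
    obtain ⟨V, hV, hV2⟩ := exists_mem_of_residual s.Odense s.Nclopen.isOpen s.Nne
    have hX := s.good V hV (hV2 hV)
    cases o with
    | none =>
      intro h
      obtain ⟨U, hU, hU2⟩ := exists_mem_of_residual h hOU ⟨_, hU1⟩
      exact hU2 ⟨hU, by simp⟩
    | some c =>
      intro h
      refine hbad _ hX (cd (s.h z0)) (s.h2 V) (Kc G a s c) (measurable_Kc G a s c) OU hOU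
        ⟨_, hU1⟩ ?_
      filter_upwards [h] with U hU hU2
      by_contra hcon
      refine hU ⟨hU2, ?_⟩
      intro c' hc'
      obtain rfl : c = c' := by simpa using hc'
      exact hcon
  obtain ⟨U, ⟨hUO, hUc⟩, hUsec⟩ := (hfreq.and_eventually hsec).exists
  -- genericity of the tail
  have hgen : ∀ᶠ V in residual (ℕ → Rl), ∀ c', ¬ TR (Kc G a s c' U) (a.f (cd (s.h (cs U z0)))) →
      ¬ TR (Kc G a s c' U) (a.f (cd (s.h (cs U V)))) := by
    refine eventually_countable_forall.2 (fun c' => ?_)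
    by_cases hc : TR (Kc G a s c' U) (a.f (cd (s.h (cs U z0))))
    · exact Eventually.of_forall fun V h => absurd hc h
    · have h1 : ¬ TR (a.g (Kc G a s c' U)) (cd (s.h (cs U z0))) := fun h => hc (a.g_iff_f.1 h)
      have h2 := (tendsto_residual_of_isOpenMap cdHomeo.continuous cdHomeo.isOpenMap).eventually
        (lemS h1)
      filter_upwards [h2] with V hV _ h3
      refine hV ?_
      rw [cdHomeo_apply]
      refine (a.g_iff_f.2 h3).trans ?_
      have e1 := s.h1 (cs U V)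
      have e2 : TR (cd (s.h z0)) (cd (s.h (cs U z0))) := s.h2 _
      have e3 : TR U (cd (s.h (cs U z0))) := (TR_cd_cs_left U z0).trans (s.h3 _)
      refine e1.trans (jn_TR (e2.trans (TR_jn_left _ _)) ?_)
      exact (cd_cs_TR U V).trans (jn_mono e3 (TR.refl _))
  obtain ⟨D, hD1, hD2, hD3⟩ := exists_open_seq (hUsec.and hgen)
  refine ⟨U, nextSt s U N2 hN2 ⟨_, hN2m⟩ (fun V hV => hN1 (hbox' U hUO V hV))
    (hUsec.mono fun V h => h.2) D hD1 hD2, ?_, ?_, ?_, ?_⟩
  · intro V hV
    exact hN1 (hbox' U hUO V hV)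
  · intro m V hV
    exact hV.1
  · intro V; rfl
  · intro V hV hm
    have hV2 := hD3 V (fun m => (hm m).2)
    refine ⟨?_, o, hV2.1.1 (hbox' U hUO V hV), hUc⟩
    intro c' h
    by_contra hcon
    exact hV2.2 c' hcon h

/-- initial state -/
def initSt (O : ℕ → Set (ℕ → Rl)) (hO : ∀ m, IsOpen (O m))
    (hd : ∀ᶠ V in residual (ℕ → Rl), ∀ m, V ∈ O m) (hg : ∀ V, (∀ m, V ∈ O m) → V ∈ C0) : St C0 where
  h V := V
  hcont := continuous_id
  h1 _ := TR_jn_right _ _
  h2 _ := TR_cd_z0 _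
  h3 _ := TR.refl _
  N := Set.univ
  Nclopen := isClopen_univ
  Nne := Set.univ_nonempty
  O := O
  Oopen := hO
  Odense := hd.mono fun _ h _ => h
  good V _ h := hg V h

theorem stepB (hC0 : ∀ᶠ X in residual (ℕ → Rl), X ∈ C0) (hCA : ∀ X ∈ C0, cd X ∈ CA G a) :
    ∃ X ∈ C0, ∃ P, TR P (cd X) ∧ ∃ F : Rl → Rl, Measurable F ∧ ∃ O : Set Rl, IsOpen O ∧
      O.Nonempty ∧ ∀ᶠ U in residual Rl, U ∈ O → TE (F U) (a.f (jn P U)) := by
  by_contra hcon
  have hbad : Bad a C0 := by
    intro X hX P hP F hF O hO hne h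
    exact hcon ⟨X, hX, P, hP, F, hF, O, hO, hne, h⟩
  obtain ⟨D, hD1, hD2, hD3⟩ := exists_open_seq hC0
  choose Uf sf hstep using fun (s : St C0) (e : Code) => exists_step G a hbad s e
  let st : ℕ → St C0 := fun n => Nat.rec (initSt D hD1 hD2 hD3)
    (fun n s => sf s (Denumerable.ofNat Code n)) n
  let U : ℕ → Rl := fun n => Uf (st n) (Denumerable.ofNat Code n)
  have hst : ∀ n, IsStep G a (st n) (Denumerable.ofNat Code n) (U n) (st (n + 1)) :=
    fun n => hstep _ _
  let tail : ℕ → ℕ → Rl := fun i j => U (i + j)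
  have htail : ∀ i, cs (U i) (tail (i + 1)) = tail i := by
    intro i
    funext j
    cases j with
    | zero => rfl
    | succ j =>
      show U (i + 1 + j) = U (i + (j + 1))
      rw [show i + 1 + j = i + (j + 1) by omega]
  -- membership in the closed sets
  let w : ℕ → ℕ → (ℕ → Rl) := fun n => Nat.rec (fun i => (st i).Nne.some)
    (fun n w i => cs (U i) (w (i + 1))) n
  have hw : ∀ n i, w n i ∈ (st i).N := by
    intro n
    induction n with
    | zero => intro i; exact (st i).Nne.some_mem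
    | succ n ih => intro i; exact ((hst i).i _ (ih (i + 1))).1
  have hw2 : ∀ j n i, j < n → w n i j = U (i + j) := by
    intro j
    induction j with
    | zero =>
      intro n i hn
      obtain ⟨n, rfl⟩ := Nat.exists_eq_succ_of_ne_zero (by omega : n ≠ 0)
      rfl
    | succ j ih =>
      intro n i hn
      obtain ⟨n, rfl⟩ := Nat.exists_eq_succ_of_ne_zero (by omega : n ≠ 0)
      have : w n (i + 1) j = U (i + 1 + j) := ih n (i + 1) (by omega)
      change w n (i + 1) j = _
      rw [this, show i + 1 + j = i + (j + 1) by omega]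
  have hN : ∀ i, tail i ∈ (st i).N := by
    intro i
    refine (st i).Nclopen.isClosed.mem_of_tendsto (f := fun n => w n i) (b := atTop) ?_
      (Eventually.of_forall fun n => hw n i)
    refine tendsto_pi_nhds.2 (fun j => ?_)
    refine tendsto_const_nhds.congr' ?_
    filter_upwards [eventually_gt_atTop j] with n hn
    exact (hw2 j n i hn).symm
  have hO : ∀ m i, tail i ∈ (st i).O m := by
    intro m
    induction m with
    | zero =>
      intro i
      rw [← htail i]
      exact ((hst i).i _ (hN (i + 1))).2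
    | succ m ih =>
      intro i
      rw [← htail i]
      exact (hst i).ii m _ (ih (i + 1))
  have hh : ∀ i, (st i).h (tail i) = tail 0 := by
    intro i
    induction i with
    | zero => rfl
    | succ i ih => rw [(hst i).iii, htail i, ih]
  have hX : tail 0 ∈ C0 := by
    have := (st 0).good _ (hN 0) (fun m => hO m 0)
    rwa [hh 0] at this
  obtain ⟨e, he⟩ := stepA1 G a (hCA _ hX)
  let i := Encodable.encode e
  have hie : Denumerable.ofNat Code i = e := Denumerable.ofNat_encode e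
  have hs := hst i
  rw [hie] at hs
  obtain ⟨hA, o, ho, hoc⟩ := hs.iv _ (hN (i + 1)) (fun m => hO m (i + 1))
  rw [hh (i + 1)] at hA
  have hP' : TR (cd ((st (i + 1)).h z0)) (cd (tail 0)) := by
    have := (st (i + 1)).h2 (tail (i + 1))
    rwa [hh (i + 1)] at this
  obtain ⟨c1, hc1⟩ := stepA1 G a (CA_down G a (hCA _ hX) hP')
  have hK1 : Kc G a (st i) c1 (U i) = a.f (cd ((st (i + 1)).h z0)) := by
    rw [hc1, hs.iii]; rfl
  have hE : Ee G a (st i) e (cs (U i) (tail (i + 1))) = a.f (cd (tail 0)) := by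
    rw [he, htail, Ee, hh i]
  have hR1 : cs (U i) (tail (i + 1)) ∈ Rt G a (st i) e c1 := by
    refine ⟨?_, ?_⟩
    · rw [hE]
      change TR (Kc G a (st i) c1 (U i)) _
      rw [hK1]
      exact a.f_mono hP'
    · intro c' h
      rw [hE] at h
      change TR (Kc G a (st i) c' (U i)) (Kc G a (st i) c1 (U i))
      rw [hK1]
      exact hA c' h
  cases o with
  | none =>
    simp only [Zs, Set.mem_iInter, Set.mem_compl_iff] at ho
    exact ho c1 hR1
  | some c =>
    refine hoc c rfl ?_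
    have e1 : TR (Kc G a (st i) c (U i)) (Kc G a (st i) c1 (U i)) := hR1.2 c ho.1
    have e2 : TR (Kc G a (st i) c1 (U i)) (Kc G a (st i) c (U i)) := ho.2 c1 hR1.1
    rw [hK1, hs.iii] at e1 e2
    have e3 : TR (cd ((st i).h (cs (U i) z0))) (jn (cd ((st i).h z0)) (U i)) := by
      refine ((st i).h1 _).trans (jn_TR (TR_jn_left _ _) ?_)
      exact (cd_cs_TR _ _).trans (jn_TR (TR_jn_right _ _) (TR_cd_z0 _))
    have e4 : TR (jn (cd ((st i).h z0)) (U i)) (cd ((st i).h (cs (U i) z0))) :=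
      jn_TR ((st i).h2 _) ((TR_cd_cs_left _ _).trans ((st i).h3 _))
    exact ⟨e1.trans (a.f_mono e3), (a.f_mono e4).trans e2⟩

end B

end Vale.Agent.P327
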