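import Vale.Agent.P327.StepB

/-!
Step C: decoding through a finitely generated group of computable homeomorphisms.
-/

namespace Vale.Agent.P327

open Nat.Partrec (Code)
open Filter Topology

/-! ### cylinders -/

theorem isOpen_cyl (x : Rl) (N : ℕ) : IsOpen {y : Rl | ∀ i, i < N → y i = x i} := by
  have : {y : Rl | ∀ i, i < N → y i = x i} = ⋂ i ∈ Finset.range N, (fun y : Rl => y i) ⁻¹' {x i} := by
    ext y; simp
  rw [this]
  refine isOpen_biInter_finset (fun i _ => ?_)
  exact (isOpen_discrete _).preimage (continuous_apply i)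

theorem box_open (x y : Rl) (N : ℕ) :
    IsOpen {p : Rl × Rl | (∀ i, i < N → p.1 i = x i) ∧ (∀ i, i < N → p.2 i = y i)} :=
  ((isOpen_cyl x N).preimage continuous_fst).inter ((isOpen_cyl y N).preimage continuous_snd)

theorem box_mem {O : Set (Rl × Rl)} (hO : IsOpen O) {p : Rl × Rl} (hp : p ∈ O) :
    ∃ N, ∀ q : Rl × Rl, (∀ i, i < N → q.1 i = p.1 i) → (∀ i, i < N → q.2 i = p.2 i) → q ∈ O := by
  obtain ⟨U, V, hU, hV, h1, h2, h3⟩ := isOpen_prod_iff.1 hO p.1 p.2 hp
  obtain ⟨N1, hN1⟩ := cylinder hU h1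
  obtain ⟨N2, hN2⟩ := cylinder hV h2
  refine ⟨max N1 N2, fun q hq1 hq2 => h3 ⟨hN1 _ ?_, hN2 _ ?_⟩⟩
  · intro i hi; exact hq1 i (lt_of_lt_of_le hi (le_max_left _ _))
  · intro i hi; exact hq2 i (lt_of_lt_of_le hi (le_max_right _ _))

/-! ### inserting a finite initial segment -/

/-- put the first `N` values of `x` in front of `U` -/
def prep (x : Rl) (N : ℕ) (U : Rl) : Rl := fun n => if n < N then x n else U (n - N)

theorem prep_mem (x : Rl) (N : ℕ) (U : Rl) : ∀ i, i < N → prep x N U i = x i := by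
  intro i hi; simp [prep, hi]

theorem TR_prep_left (x : Rl) (N : ℕ) (U : Rl) : TR (prep x N U) U := by
  have h1 : TR (prep x N U) (fun n => U (n - N)) := by
    refine TR_mod ((Set.finite_lt_nat N).subset ?_)
    intro n hn
    by_contra h
    exact hn (by simp [prep, show ¬ n < N from h])
  exact h1.trans (TR_comp _ (Primrec.nat_sub.comp Primrec.id (Primrec.const N)).to_comp)

theorem TR_prep_right (x : Rl) (N : ℕ) (U : Rl) : TR U (prep x N U) := by
  have : U = fun n => prep x N U (n + N) := by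
    funext n; simp [prep]
  conv_lhs => rw [this]
  exact TR_comp _ (Primrec.nat_add.comp Primrec.id (Primrec.const N)).to_comp

theorem continuous_prep (x : Rl) (N : ℕ) : Continuous (prep x N) := by
  refine continuous_pi (fun n => ?_)
  by_cases h : n < N
  · simp only [prep, h, if_true]; exact continuous_const
  · simp only [prep, h, if_false]; exact continuous_apply _

theorem isOpenMap_prep (x : Rl) (N : ℕ) : IsOpenMap (prep x N) := by
  intro W hW
  rw [isOpen_iff_mem_nhds]
  rintro _ ⟨U, hU, rfl⟩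
  obtain ⟨M, hM⟩ := cylinder hW hU
  refine mem_of_superset ((isOpen_cyl (prep x N U) (N + M)).mem_nhds (fun _ _ => rfl)) ?_
  intro V hV
  refine ⟨fun n => V (n + N), hM _ ?_, ?_⟩
  · intro i hi
    show V (i + N) = U i
    rw [hV (i + N) (by omega)]; simp [prep]
  · funext n
    by_cases h : n < N
    · have := hV n (by omega)
      simp only [prep, h, if_true] at this ⊢
      exact this.symm
    · simp only [prep, h, if_false]
      congr 1; omega

/-! ### the permutation of ℕ with one infinite orbit -/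

/-- shift -/
def tau (m : ℕ) : ℕ := if m % 2 = 0 then m + 2 else if m = 1 then 0 else m - 2
/-- inverse shift -/
def tau' (m : ℕ) : ℕ := if m % 2 = 0 then (if m = 0 then 1 else m - 2) else m + 2

theorem tau_tau' (m : ℕ) : tau (tau' m) = m := by
  unfold tau'
  by_cases h1 : m % 2 = 0
  · by_cases h2 : m = 0
    · simp [h2, tau]
    · rw [if_pos h1, if_neg h2]
      unfold tau
      rw [if_pos (by omega)]
      omega
  · rw [if_neg h1]
    unfold tau
    rw [if_neg (by omega), if_neg (by omega)]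
    omega

theorem tau'_tau (m : ℕ) : tau' (tau m) = m := by
  unfold tau
  by_cases h1 : m % 2 = 0
  · rw [if_pos h1]
    unfold tau'
    rw [if_pos (by omega), if_neg (by omega)]
    omega
  · by_cases h2 : m = 1
    · simp [h2, tau']
    · rw [if_neg h1, if_neg h2]
      unfold tau'
      rw [if_neg (by omega)]
      omega

theorem tau_iter (n : ℕ) : tau^[n] 0 = 2 * n := by
  induction n with
  | zero => rfl
  | succ n ih =>
    rw [Function.iterate_succ_apply', ih]
    unfold tau
    rw [if_pos (by omega)]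
    omega

theorem computable_tau : Computable tau := by
  have h1 : PrimrecPred fun m : ℕ => m % 2 = 0 :=
    Primrec.eq.comp (Primrec.nat_mod.comp Primrec.id (Primrec.const 2)) (Primrec.const 0)
  have h2 : PrimrecPred fun m : ℕ => m = 1 := Primrec.eq.comp Primrec.id (Primrec.const 1)
  exact (Primrec.ite h1 (Primrec.nat_add.comp Primrec.id (Primrec.const 2))
    (Primrec.ite h2 (Primrec.const 0) (Primrec.nat_sub.comp Primrec.id (Primrec.const 2)))).to_comp

theorem computable_tau' : Computable tau' := by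
  have h1 : PrimrecPred fun m : ℕ => m % 2 = 0 :=
    Primrec.eq.comp (Primrec.nat_mod.comp Primrec.id (Primrec.const 2)) (Primrec.const 0)
  have h2 : PrimrecPred fun m : ℕ => m = 0 := Primrec.eq.comp Primrec.id (Primrec.const 0)
  exact (Primrec.ite h1 (Primrec.ite h2 (Primrec.const 1)
    (Primrec.nat_sub.comp Primrec.id (Primrec.const 2)))
    (Primrec.nat_add.comp Primrec.id (Primrec.const 2))).to_comp

/-! ### the action -/

/-- action of one label on one column -/
def colact (t : ℕ → ℕ) (b1 b2 : Bool) (x : ℕ → Bool) : ℕ → Bool := fun m =>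
  cond b1
    (cond b2 (if m = 1 then xor (x 1) (!x 0) else x m) (if m = 1 then xor (x 1) (x 0) else x m))
    (cond b2 (x (t m)) (x m))

theorem act_pair (t : ℕ → ℕ) (Y X : Rl) (k m : ℕ) :
    act t Y X (Nat.pair k m) =
      colact t (Y (2 * k)) (Y (2 * k + 1)) (fun m => X (Nat.pair k m)) m := by
  simp [act, colact]

theorem ext_pair {A B : Rl} (h : ∀ k m, A (Nat.pair k m) = B (Nat.pair k m)) : A = B := by
  funext n
  have := h n.unpair.1 n.unpair.2
  simpa using this

theorem colact_colact {t t' : ℕ → ℕ} (h : ∀ m, t (t' m) = m) (b1 b2 : Bool) (x : ℕ → Bool) :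
    colact t' b1 b2 (colact t b1 b2 x) = x := by
  funext m
  cases b1 <;> cases b2
  · simp [colact]
  · simp [colact, h]
  · by_cases hm : m = 1 <;> simp [colact, hm]
  · by_cases hm : m = 1 <;> simp [colact, hm]

theorem colact_ff (t : ℕ → ℕ) (x : ℕ → Bool) : colact t false false x = x := by
  funext m; simp [colact]

theorem act_act {t t' : ℕ → ℕ} (h : ∀ m, t (t' m) = m) (Y X : Rl) :
    act t' Y (act t Y X) = X := by
  refine ext_pair (fun k m => ?_)
  rw [act_pair]
  simp only [act_pair]
  exact congrFun (colact_colact h _ _ _) m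

theorem continuous_act (t : ℕ → ℕ) : Continuous fun p : Rl × Rl => act t p.2 p.1 := by
  refine continuous_pi (fun n => ?_)
  have e1 : ∀ i, Continuous fun p : Rl × Rl => p.1 i := fun i =>
    (continuous_apply i).comp continuous_fst
  have e2 : ∀ i, Continuous fun p : Rl × Rl => p.2 i := fun i =>
    (continuous_apply i).comp continuous_snd
  let Φ : Bool × Bool × Bool × Bool × Bool × Bool → Bool := fun q =>
    cond q.1 (cond q.2.1
      (if n.unpair.2 = 1 then xor q.2.2.1 (!q.2.2.2.1) else q.2.2.2.2.1)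
      (if n.unpair.2 = 1 then xor q.2.2.1 q.2.2.2.1 else q.2.2.2.2.1))
      (cond q.2.1 q.2.2.2.2.2 q.2.2.2.2.1)
  have : Continuous Φ := continuous_of_discreteTopology
  exact this.comp ((e2 (2 * n.unpair.1)).prodMk ((e2 (2 * n.unpair.1 + 1)).prodMk
    ((e1 (Nat.pair n.unpair.1 1)).prodMk ((e1 (Nat.pair n.unpair.1 0)).prodMk
      ((e1 n).prodMk (e1 (Nat.pair n.unpair.1 (t n.unpair.2))))))))

/-- the action as a homeomorphism of pairs -/
def actHomeo (t t' : ℕ → ℕ) (h : ∀ m, t (t' m) = m) (h' : ∀ m, t' (t m) = m) :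
    (Rl × Rl) ≃ₜ (Rl × Rl) where
  toFun p := (act t p.2 p.1, p.2)
  invFun p := (act t' p.2 p.1, p.2)
  left_inv p := by simp [act_act h]
  right_inv p := by simp [act_act h']
  continuous_toFun := (continuous_act t).prodMk continuous_snd
  continuous_invFun := (continuous_act t').prodMk continuous_snd

/-- the action of a fixed label sequence as a homeomorphism -/
def actHomeo1 (t t' : ℕ → ℕ) (h : ∀ m, t (t' m) = m) (h' : ∀ m, t' (t m) = m) (Y : Rl) :
    Rl ≃ₜ Rl where
  toFun X := act t Y X
  invFun X := act t' Y X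
  left_inv X := act_act h Y X
  right_inv X := act_act h' Y X
  continuous_toFun := (continuous_act t).comp (continuous_id.prodMk continuous_const)
  continuous_invFun := (continuous_act t').comp (continuous_id.prodMk continuous_const)

theorem xr_xr (A B : Rl) : xr (xr A B) B = A := by
  funext n; simp [xr]

theorem continuous_xr_right (M : Rl) : Continuous fun Y => xr Y M := by
  refine continuous_pi (fun n => ?_)
  exact (continuous_of_discreteTopology (f := fun b : Bool => xor b (M n))).comp (continuous_apply n)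

/-- exclusive or with a fixed real as a homeomorphism -/
def xrHomeo (M : Rl) : Rl ≃ₜ Rl where
  toFun Y := xr Y M
  invFun Y := xr Y M
  left_inv Y := xr_xr Y M
  right_inv Y := xr_xr Y M
  continuous_toFun := continuous_xr_right M
  continuous_invFun := continuous_xr_right M

/-- label sequence with label `(b1, b2)` at `k` and trivial labels elsewhere -/
def msk (k : ℕ) (b1 b2 : Bool) : Rl := fun n => (decide (n = 2 * k) && b1) || (decide (n = 2 * k + 1) && b2)

theorem msk_even (k i : ℕ) (b1 b2 : Bool) : msk k b1 b2 (2 * i) = (decide (i = k) && b1) := by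
  have h1 : (2 * i = 2 * k) ↔ i = k := by omega
  have h2 : ¬ (2 * i = 2 * k + 1) := by omega
  simp [msk, h1, h2]

theorem msk_odd (k i : ℕ) (b1 b2 : Bool) : msk k b1 b2 (2 * i + 1) = (decide (i = k) && b2) := by
  have h1 : ¬ (2 * i + 1 = 2 * k) := by omega
  have h2 : (2 * i + 1 = 2 * k + 1) ↔ i = k := by omega
  simp [msk, h1]

theorem act_xr {t t' : ℕ → ℕ} (h : ∀ m, t' (t m) = m) {k : ℕ} {Y : Rl}
    (h0 : Y (2 * k) = false) (h1 : Y (2 * k + 1) = false) (b1 b2 : Bool) (X : Rl) :
    act t (xr Y (msk k b1 b2)) (act t' Y X) = act t (msk k b1 b2) X := by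
  refine ext_pair (fun i m => ?_)
  simp only [act_pair, xr, msk_even, msk_odd]
  by_cases hk : i = k
  · subst hk
    simp only [h0, h1, decide_true, Bool.true_and, Bool.false_xor]
    exact congrFun (congrArg _ (colact_ff t' _)) m
  · simp only [hk, decide_false, Bool.false_and, Bool.xor_false]
    rw [colact_ff]
    exact congrFun (colact_colact h _ _ _) m

theorem act_msk_of_lt (t : ℕ → ℕ) {k n : ℕ} (hn : n < k) (b1 b2 : Bool) (X : Rl) :
    act t (msk k b1 b2) X n = X n := by
  have h1 : n.unpair.1 ≠ k := by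
    have := Nat.unpair_left_le n
    omega
  simp [act, msk_even, msk_odd, h1]

theorem act_msk_col (t : ℕ → ℕ) (k i m : ℕ) (b1 b2 : Bool) (X : Rl) :
    act t (msk k b1 b2) X (Nat.pair i m) =
      if i = k then colact t b1 b2 (fun m => X (Nat.pair k m)) m else X (Nat.pair i m) := by
  rw [act_pair, msk_even, msk_odd]
  by_cases h : i = k
  · simp [h]
  · simp [h, colact_ff]

theorem T2_iff (t : ℕ → ℕ) (k : ℕ) (V : Rl) :
    V ≠ act t (msk k true false) V ↔ V (Nat.pair k 0) = true := by
  constructor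
  · intro h
    by_contra h0
    refine h (ext_pair fun i m => ?_)
    rw [act_msk_col]
    by_cases hi : i = k
    · subst hi
      by_cases hm : m = 1
      · subst hm; simp [colact, h0]
      · simp [colact, hm]
    · simp [hi]
  · intro h0 h
    have := congrFun h (Nat.pair k 1)
    rw [act_msk_col] at this
    simp [colact, h0] at this

theorem T3_iff (t : ℕ → ℕ) (k : ℕ) (V : Rl) :
    V ≠ act t (msk k true true) V ↔ V (Nat.pair k 0) = false := by
  constructor
  · intro h
    by_contra h0
    refine h (ext_pair fun i m => ?_)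
    rw [act_msk_col]
    by_cases hi : i = k
    · subst hi
      by_cases hm : m = 1
      · subst hm; simp [colact, h0]
      · simp [colact, hm]
    · simp [hi]
  · intro h0 h
    have := congrFun h (Nat.pair k 1)
    rw [act_msk_col] at this
    simp [colact, h0] at this

theorem S_iter_col (k n m : ℕ) (X : Rl) :
    (act tau (msk k false true))^[n] X (Nat.pair k m) = X (Nat.pair k (tau^[n] m)) := by
  induction n generalizing m with
  | zero => rfl
  | succ n ih =>
    rw [Function.iterate_succ_apply', act_msk_col, if_pos rfl, Function.iterate_succ_apply]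
    simp only [colact, cond_false, cond_true]
    exact ih (tau m)

theorem S_iter_lt {k i : ℕ} (hi : i < k) (n : ℕ) (X : Rl) :
    (act tau (msk k false true))^[n] X i = X i := by
  induction n with
  | zero => rfl
  | succ n ih => rw [Function.iterate_succ_apply', act_msk_of_lt tau hi, ih]

theorem xr_msk_lt {N k i : ℕ} (hN : N ≤ k) (hi : i < N) (b1 b2 : Bool) (Y : Rl) :
    xr Y (msk k b1 b2) i = Y i := by
  have h1 : i ≠ 2 * k := by omega
  have h2 : i ≠ 2 * k + 1 := by omega
  simp [xr, msk, h1, h2]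

theorem TR_xr_msk (k : ℕ) (b1 b2 : Bool) (Y : Rl) : TR (xr Y (msk k b1 b2)) Y := by
  refine TR_mod ((Set.finite_lt_nat (2 * k + 2)).subset ?_)
  intro n hn
  by_contra h
  have h1 : n ≠ 2 * k := by intro h'; exact h (by show n < 2 * k + 2; omega)
  have h2 : n ≠ 2 * k + 1 := by intro h'; exact h (by show n < 2 * k + 2; omega)
  exact hn (by simp [xr, msk, h1, h2])

section C

variable (a : Aut) (P : Rl) (F Li : Rl → Rl)

/-- good reals -/
def Gd : Set Rl := {U | TE (F U) (a.f (jn P U)) ∧ Li (F U) = U}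

variable {a P F Li}

theorem Gd_le {X Y Z : Rl} (hX : X ∈ Gd a P F Li) (hY : Y ∈ Gd a P F Li) (hZ : Z ∈ Gd a P F Li)
    (h : TR Z (jn X Y)) : TR (F Z) (jn (F X) (F Y)) := by
  refine hZ.1.1.trans ?_
  have h1 : TR (jn P Z) (jn (jn P X) (jn P Y)) := by
    refine jn_TR ((TR_jn_left P X).trans (TR_jn_left _ _)) (h.trans ?_)
    exact jn_mono (TR_jn_right _ _) (TR_jn_right _ _)
  exact ((a.f_mono h1).trans (a.f_jn _ _)).trans (jn_mono hX.1.2 hY.1.2)

theorem Gd_le_f {X Z : Rl} (hX : X ∈ Gd a P F Li) (h : TR X Z) : TR (F X) (a.f (jn P Z)) :=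
  hX.1.1.trans (a.f_mono (jn_mono (TR.refl _) h))

theorem tendsto_fst_res : Tendsto (Prod.fst : Rl × Rl → Rl) (residual (Rl × Rl)) (residual Rl) :=
  tendsto_residual_of_isOpenMap continuous_fst isOpenMap_fst

theorem tendsto_snd_res : Tendsto (Prod.snd : Rl × Rl → Rl) (residual (Rl × Rl)) (residual Rl) :=
  tendsto_residual_of_isOpenMap continuous_snd isOpenMap_snd

theorem tendsto_homeo {X Y : Type*} [TopologicalSpace X] [TopologicalSpace Y] (h : X ≃ₜ Y) :
    Tendsto h (residual X) (residual Y) :=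
  tendsto_residual_of_isOpenMap h.continuous h.isOpenMap

theorem measurableSet_S (hF : Measurable F) (c : Code) (t : ℕ → ℕ) :
    MeasurableSet {p : Rl × Rl | Phi c (jn (F p.1) (F p.2)) (F (act t p.2 p.1))} := by
  have h1 : Measurable fun p : Rl × Rl => jn (F p.1) (F p.2) :=
    measurable_jn.comp ((hF.comp measurable_fst).prodMk (hF.comp measurable_snd))
  have h2 : Measurable fun p : Rl × Rl => F (act t p.2 p.1) :=
    hF.comp (continuous_act t).measurable
  exact (h1.prodMk h2) (measurableSet_Phi c)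

theorem exists_index (hgood : ∀ᶠ U in residual Rl, U ∈ Gd a P F Li) {t t' : ℕ → ℕ}
    (ht : Computable t) (h : ∀ m, t (t' m) = m) (h' : ∀ m, t' (t m) = m) :
    ∀ᶠ p in residual (Rl × Rl), ∃ c, Phi c (jn (F p.1) (F p.2)) (F (act t p.2 p.1)) := by
  have e1 := tendsto_fst_res.eventually hgood
  have e2 := tendsto_snd_res.eventually hgood
  have e3 := (tendsto_fst_res.comp (tendsto_homeo (actHomeo t t' h h'))).eventually hgood
  filter_upwards [e1, e2, e3] with p h1 h2 h3
  exact exists_phi (Gd_le h1 h2 h3 (TR_act ht _ _))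

theorem stepC_star (hF : Measurable F) (hgood : ∀ᶠ U in residual Rl, U ∈ Gd a P F Li) :
    ∃ (k : ℕ) (B : Set (Rl × Rl)), IsOpen B ∧ B.Nonempty ∧
      (∀ X X' Y, (∀ i, i < k → X i = X' i) → (X, Y) ∈ B → (X', Y) ∈ B) ∧
      ∀ᶠ p in residual (Rl × Rl), p ∈ B →
        TR (a.g (fun n => p.1 (Nat.pair k (2 * n)))) (jn P (jn p.1 p.2)) := by
  -- the inverse action
  obtain ⟨c', O2, -, hO2, hne2, hS2⟩ := pigeon
    (fun c => {p : Rl × Rl | Phi c (jn (F p.1) (F p.2)) (F (act tau p.2 p.1))})
    (fun c => measurableSet_S hF c tau) Set.univ isOpen_univ Set.univ_nonempty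
    ((exists_index hgood computable_tau tau_tau' tau'_tau).mono fun p h _ => h)
  obtain ⟨q2, hq2⟩ := hne2
  obtain ⟨N2, hN2⟩ := box_mem hO2 hq2
  let H := actHomeo tau' tau tau'_tau tau_tau'
  let B2 : Set (Rl × Rl) := {p | (∀ i, i < N2 → p.1 i = q2.1 i) ∧ (∀ i, i < N2 → p.2 i = q2.2 i)}
  have hB2 : IsOpen B2 := box_open _ _ _
  -- the action
  obtain ⟨c, O1, hO1s, hO1, hne1, hS1⟩ := pigeon
    (fun c => {p : Rl × Rl | Phi c (jn (F p.1) (F p.2)) (F (act tau' p.2 p.1))})
    (fun c => measurableSet_S hF c tau') (H ⁻¹' B2) (hB2.preimage H.continuous)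
    ⟨H.symm q2, by
      show H (H.symm q2) ∈ B2
      rw [H.apply_symm_apply]
      exact ⟨fun _ _ => rfl, fun _ _ => rfl⟩⟩
    ((exists_index hgood computable_tau' tau'_tau tau_tau').mono fun p h _ => h)
  obtain ⟨q1, hq1⟩ := hne1
  obtain ⟨N1, hN1⟩ := box_mem hO1 hq1
  let k := max N1 N2
  have hk1 : N1 ≤ k := le_max_left _ _
  have hk2 : N2 ≤ k := le_max_right _ _
  let B : Set (Rl × Rl) := {p | (∀ i, i < N1 → p.1 i = q1.1 i) ∧ (∀ i, i < N1 → p.2 i = q1.2 i)} ∩
    {p | p.2 (2 * k) = false ∧ p.2 (2 * k + 1) = false}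
  have hBsub : ∀ p ∈ B, p ∈ O1 := fun p hp => hN1 p hp.1.1 hp.1.2
  have hBopen : IsOpen B := by
    refine (box_open _ _ _).inter ?_
    have hc : ∀ j, Continuous fun p : Rl × Rl => p.2 j := fun j =>
      (continuous_apply j).comp continuous_snd
    have h1 : ∀ j, IsOpen {p : Rl × Rl | p.2 j = false} := fun j =>
      (isOpen_discrete ({false} : Set Bool)).preimage (hc j)
    exact (h1 _).inter (h1 _)
  refine ⟨k, B, hBopen, ?_, ?_, ?_⟩
  · refine ⟨(q1.1, fun n => if n < N1 then q1.2 n else false), ⟨fun _ _ => rfl, ?_⟩, ?_, ?_⟩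
    · intro i hi; simp [hi]
    · have : ¬ (2 * k < N1) := by omega
      simp [this]
    · have : ¬ (2 * k + 1 < N1) := by omega
      simp [this]
  · intro X X' Y hXX' hX
    refine ⟨⟨fun i hi => ?_, hX.1.2⟩, hX.2⟩
    show X' i = q1.1 i
    rw [← hXX' i (by omega)]
    exact hX.1.1 i hi
  -- the generic set
  let S : Rl → Rl := act tau (msk k false true)
  let Sh : Rl ≃ₜ Rl := actHomeo1 tau tau' tau_tau' tau'_tau (msk k false true)
  have tS : Tendsto (fun p : Rl × Rl => (S p.1, p.2)) (residual (Rl × Rl)) (residual (Rl × Rl)) :=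
    tendsto_homeo (Sh.prodCongr (Homeomorph.refl Rl))
  have tSn : ∀ n, Tendsto (fun p : Rl × Rl => (S^[n] p.1, p.2)) (residual (Rl × Rl))
      (residual (Rl × Rl)) := by
    intro n
    induction n with
    | zero => exact tendsto_id
    | succ n ih =>
      have := tS.comp ih
      refine this.congr (fun p => ?_)
      simp only [Function.comp, Function.iterate_succ_apply']
  have tX : ∀ b1 b2, Tendsto (fun p : Rl × Rl => (p.1, xr p.2 (msk k b1 b2)))
      (residual (Rl × Rl)) (residual (Rl × Rl)) := fun b1 b2 =>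
    tendsto_homeo ((Homeomorph.refl Rl).prodCongr (xrHomeo (msk k b1 b2)))
  have tM : ∀ b1 b2, Tendsto (fun p : Rl × Rl => (act tau (msk k b1 b2) p.1, p.2))
      (residual (Rl × Rl)) (residual (Rl × Rl)) := fun b1 b2 =>
    tendsto_homeo ((actHomeo1 tau tau' tau_tau' tau'_tau (msk k b1 b2)).prodCongr
      (Homeomorph.refl Rl))
  have g1 : ∀ᶠ p in residual (Rl × Rl), ∀ n, S^[n] p.1 ∈ Gd a P F Li :=
    eventually_countable_forall.2 fun n =>
      (tSn n).eventually (tendsto_fst_res.eventually hgood)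
  have g2 : ∀ᶠ p in residual (Rl × Rl), ∀ n, ∀ b1 b2,
      act tau (msk k b1 b2) (S^[n] p.1) ∈ Gd a P F Li :=
    eventually_countable_forall.2 fun n => eventually_countable_forall.2 fun b1 =>
      eventually_countable_forall.2 fun b2 =>
        (tSn n).eventually ((tM b1 b2).eventually (tendsto_fst_res.eventually hgood))
  have g3 : ∀ᶠ p in residual (Rl × Rl), ∀ b1 b2, xr p.2 (msk k b1 b2) ∈ Gd a P F Li :=
    eventually_countable_forall.2 fun b1 => eventually_countable_forall.2 fun b2 =>
      (tX b1 b2).eventually (tendsto_snd_res.eventually hgood)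
  have g3' : ∀ᶠ p in residual (Rl × Rl), p.2 ∈ Gd a P F Li := tendsto_snd_res.eventually hgood
  have g4 : ∀ᶠ p in residual (Rl × Rl), ∀ n, (S^[n] p.1, p.2) ∈ O1 →
      Phi c (jn (F (S^[n] p.1)) (F p.2)) (F (act tau' p.2 (S^[n] p.1))) :=
    eventually_countable_forall.2 fun n => (tSn n).eventually hS1
  have g5 : ∀ᶠ p in residual (Rl × Rl), ∀ n, ∀ b1 b2,
      (act tau' p.2 (S^[n] p.1), xr p.2 (msk k b1 b2)) ∈ O2 →
      Phi c' (jn (F (act tau' p.2 (S^[n] p.1))) (F (xr p.2 (msk k b1 b2))))
        (F (act tau (xr p.2 (msk k b1 b2)) (act tau' p.2 (S^[n] p.1)))) :=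
    eventually_countable_forall.2 fun n => eventually_countable_forall.2 fun b1 =>
      eventually_countable_forall.2 fun b2 =>
        (tSn n).eventually ((tendsto_homeo H).eventually ((tX b1 b2).eventually hS2))
  filter_upwards [g1, g2, g3, g3', g4, g5] with p h1 h2 h3 h3' h4 h5 hpB
  obtain ⟨X, Y⟩ := p
  have hlab : Y (2 * k) = false ∧ Y (2 * k + 1) = false := hpB.2
  -- positions in the boxes
  have hXn : ∀ n, (S^[n] X, Y) ∈ O1 := by
    intro n
    refine hN1 _ (fun i hi => ?_) hpB.1.2
    show S^[n] X i = q1.1 i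
    rw [show S^[n] X i = X i from S_iter_lt (by omega) n X]
    exact hpB.1.1 i hi
  have hYn : ∀ n b1 b2, (act tau' Y (S^[n] X), xr Y (msk k b1 b2)) ∈ O2 := by
    intro n b1 b2
    have hb : H (S^[n] X, Y) ∈ B2 := hO1s (hXn n)
    refine hN2 _ hb.1 (fun i hi => ?_)
    show xr Y (msk k b1 b2) i = q2.2 i
    rw [xr_msk_lt hk2 hi]
    exact hb.2 i hi
  have hact : ∀ n b1 b2, act tau (xr Y (msk k b1 b2)) (act tau' Y (S^[n] X)) =
      act tau (msk k b1 b2) (S^[n] X) := fun n b1 b2 => act_xr tau'_tau hlab.1 hlab.2 b1 b2 _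
  have key := iter_decode c c' (fun n => F (S^[n] X)) (fun n => F (act tau' Y (S^[n] X)))
    (fun n => F (act tau (msk k true false) (S^[n] X)))
    (fun n => F (act tau (msk k true true) (S^[n] X)))
    (F Y) (F (xr Y (msk k false true))) (F (xr Y (msk k true false))) (F (xr Y (msk k true true)))
    (fun n => X (Nat.pair k (2 * n)))
    (fun n => h4 n (hXn n))
    (fun n => by
      have := h5 n false true (hYn n _ _)
      rw [hact] at this
      rw [Function.iterate_succ_apply']
      exact this)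
    (fun n => by
      have := h5 n true false (hYn n _ _)
      rwa [hact] at this)
    (fun n => by
      have := h5 n true true (hYn n _ _)
      rwa [hact] at this)
    (fun n => by
      have e1 : S^[n] X (Nat.pair k 0) = X (Nat.pair k (2 * n)) := by
        rw [← tau_iter n]; exact S_iter_col k n 0 X
      rw [← e1, ← T2_iff tau k (S^[n] X)]
      refine not_congr ⟨fun h => congrArg F h, fun h => ?_⟩
      have := congrArg Li h
      rwa [(h1 n).2, (h2 n true false).2] at this)
    (fun n => by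
      have e1 : S^[n] X (Nat.pair k 0) = X (Nat.pair k (2 * n)) := by
        rw [← tau_iter n]; exact S_iter_col k n 0 X
      rw [← e1, ← T3_iff tau k (S^[n] X)]
      refine not_congr ⟨fun h => congrArg F h, fun h => ?_⟩
      have := congrArg Li h
      rwa [(h1 n).2, (h2 n true true).2] at this)
  refine a.g_iff_f.2 (key.trans ?_)
  have hY : ∀ b1 b2, TR (F (xr Y (msk k b1 b2))) (a.f (jn P (jn X Y))) := fun b1 b2 =>
    Gd_le_f (h3 b1 b2) ((TR_xr_msk k b1 b2 Y).trans (TR_jn_right _ _))
  exact jn_TR (Gd_le_f (h1 0) (TR_jn_left _ _))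
    (jn_TR (jn_TR (Gd_le_f h3' (TR_jn_right _ _)) (hY _ _)) (jn_TR (hY _ _) (hY _ _)))

/-- place `A` on the even positions of column `k` -/
def plc (k : ℕ) (A : Rl) : Rl := fun n =>
  (decide (n.unpair.1 = k) && decide (n.unpair.2 % 2 = 0)) && A (n.unpair.2 / 2)

theorem TR_plc (k : ℕ) (A : Rl) : TR (plc k A) A := by
  have h1 : Primrec fun n : ℕ => n.unpair.1 := Primrec.fst.comp Primrec.unpair
  have h2 : Primrec fun n : ℕ => n.unpair.2 := Primrec.snd.comp Primrec.unpair
  have h3 : Primrec fun n : ℕ => n.unpair.2 / 2 := Primrec.nat_div.comp h2 (Primrec.const 2)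
  have h4 : Primrec fun n : ℕ => decide (n.unpair.1 = k) :=
    (Primrec.eq.comp h1 (Primrec.const k)).decide
  have h5 : Primrec fun n : ℕ => decide (n.unpair.2 % 2 = 0) :=
    (Primrec.eq.comp (Primrec.nat_mod.comp h2 (Primrec.const 2)) (Primrec.const 0)).decide
  have h6 : Primrec fun n : ℕ => (decide (n.unpair.1 = k) && decide (n.unpair.2 % 2 = 0)) :=
    Primrec.and.comp h4 h5
  exact TR_tt A (fun n => n.unpair.2 / 2) (fun n => n) (fun n => n) (fun n => n)
    (fun n b _ _ _ => (decide (n.unpair.1 = k) && decide (n.unpair.2 % 2 = 0)) && b)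
    h3.to_comp Computable.id Computable.id Computable.id
    (Primrec.and.comp (h6.comp Primrec.fst) (Primrec.fst.comp Primrec.snd)).to_comp

theorem stepC_all (hF : Measurable F) (hgood : ∀ᶠ U in residual Rl, U ∈ Gd a P F Li) (A : Rl) :
    TR (a.g A) (jn P A) := by
  obtain ⟨k, B, hB, hne, hinv, hstar⟩ := stepC_star hF hgood
  by_contra hcon
  have h1 := (tendsto_homeo jnHomeo).eventually (lemS hcon)
  have h2 : ∀ᶠ p : Rl × Rl in residual (Rl × Rl), (xr p.1 (plc k A), p.2) ∈ B →
      TR (a.g (fun n => (xr p.1 (plc k A)) (Nat.pair k (2 * n))))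
        (jn P (jn (xr p.1 (plc k A)) p.2)) :=
    (tendsto_homeo ((xrHomeo (plc k A)).prodCongr (Homeomorph.refl Rl))).eventually hstar
  obtain ⟨p, hpB, h3, h4, h5⟩ := exists_mem_of_residual (h1.and (h2.and hstar)) hB hne
  obtain ⟨X, Y⟩ := p
  have hX' : (xr X (plc k A), Y) ∈ B := by
    refine hinv X _ Y (fun i hi => ?_) hpB
    have : i.unpair.1 ≠ k := by
      have := Nat.unpair_left_le i
      omega
    simp [xr, plc, this]
  have h6 := h4 hX'
  have h7 := h5 hpB
  rw [jnHomeo_apply] at h3
  refine h3 ?_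
  have e1 : A = xr (fun n => X (Nat.pair k (2 * n)))
      (fun n => (xr X (plc k A)) (Nat.pair k (2 * n))) := by
    funext n
    have : (2 * n) / 2 = n := by omega
    simp [xr, plc, this]
  have e2 : TR A (jn (fun n => X (Nat.pair k (2 * n)))
      (fun n => (xr X (plc k A)) (Nat.pair k (2 * n)))) := by
    conv_lhs => rw [e1]
    exact TR_xr _ _
  refine ((a.g_mono e2).trans (a.g_jn _ _)).trans (jn_TR (h7.trans ?_) (h6.trans ?_))
  · exact jn_mono (TR_jn_left _ _) (TR.refl _)
  · have eP : TR P (jn (jn P A) (jn X Y)) := (TR_jn_left P A).trans (TR_jn_left _ _)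
    have eA : TR A (jn (jn P A) (jn X Y)) := (TR_jn_right P A).trans (TR_jn_left _ _)
    have eX : TR X (jn (jn P A) (jn X Y)) := (TR_jn_left X Y).trans (TR_jn_right _ _)
    have eY : TR Y (jn (jn P A) (jn X Y)) := (TR_jn_right X Y).trans (TR_jn_right _ _)
    exact jn_TR eP (jn_TR ((TR_xr _ _).trans (jn_TR eX ((TR_plc k A).trans eA))) eY)

end C

theorem measurableSet_eq_Rl {α : Type*} [MeasurableSpace α] {F H : α → Rl}
    (hF : Measurable F) (hH : Measurable H) : MeasurableSet {x | F x = H x} := by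
  have : {x | F x = H x} = ⋂ n, {x | F x n = H x n} := by
    ext x; simp [funext_iff]
  rw [this]
  refine MeasurableSet.iInter (fun n => ?_)
  have h1 : Measurable fun x => (F x n, H x n) :=
    ((measurable_pi_apply n).comp hF).prodMk ((measurable_pi_apply n).comp hH)
  exact h1 (MeasurableSet.of_discrete (s := {q : Bool × Bool | q.1 = q.2}))

theorem stepC (G : ℕ → Rl) (hG : ∀ i, ¬ TR (G i) (cd (del i G))) (a : Aut) {P : Rl}
    {F : Rl → Rl} (hF : Measurable F) {O : Set Rl} (hO : IsOpen O) (hne : O.Nonempty)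
    (h : ∀ᶠ U in residual Rl, U ∈ O → TE (F U) (a.f (jn P U))) (A : Rl) :
    TR (a.g A) (jn P A) := by
  have h1 : ∀ᶠ U in residual Rl, U ∈ O → ∃ c, U ∈ {U : Rl | U = Lam G a c (F U)} := by
    filter_upwards [h, stepA2 G hG a] with U hU h2 hUO
    exact h2 (F U) ((a.f_mono (TR_jn_right P U)).trans (hU hUO).2)
  obtain ⟨c, O1, hO1s, hO1, hne1, hS⟩ := pigeon (fun c => {U : Rl | U = Lam G a c (F U)})
    (fun c => measurableSet_eq_Rl measurable_id ((measurable_Lam G a c).comp hF)) O hO hne h1
  obtain ⟨x, hx⟩ := hne1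
  obtain ⟨N, hN⟩ := cylinder hO1 hx
  have hpre : ∀ U, prep x N U ∈ O1 := fun U => hN _ (prep_mem x N U)
  have t : Tendsto (prep x N) (residual Rl) (residual Rl) :=
    tendsto_residual_of_isOpenMap (continuous_prep x N) (isOpenMap_prep x N)
  have hgood : ∀ᶠ U in residual Rl, U ∈ Gd a P (fun U => F (prep x N U))
      (fun W n => Lam G a c W (n + N)) := by
    filter_upwards [t.eventually h, t.eventually hS] with U h2 h3
    have h4 := h2 (hO1s (hpre U))
    have h5 : prep x N U = Lam G a c (F (prep x N U)) := h3 (hpre U)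
    refine ⟨⟨h4.1.trans (a.f_mono (jn_mono (TR.refl _) (TR_prep_left x N U))),
      (a.f_mono (jn_mono (TR.refl _) (TR_prep_right x N U))).trans h4.2⟩, ?_⟩
    funext n
    show Lam G a c (F (prep x N U)) (n + N) = U n
    rw [← h5]
    simp [prep]
  exact stepC_all (hF.comp (continuous_prep x N).measurable) hgood A

/-- every automorphism is below the identity -/
theorem g_le (a : Aut) (A : Rl) : TR (a.g A) A := by
  obtain ⟨G, hG⟩ := exists_indep
  by_contra hcon
  let C0 : Set (ℕ → Rl) := {X | cd X ∈ CA G a ∧ ¬ TR (a.g A) (jn A (cd X))}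
  have h1 : ∀ᶠ X in residual (ℕ → Rl), X ∈ C0 := by
    have h2 := (tendsto_homeo cdHomeo).eventually ((CA_residual G hG a).and (lemS hcon))
    filter_upwards [h2] with X hX
    rw [cdHomeo_apply] at hX
    exact hX
  obtain ⟨X, hX, P, hP, F, hF, O, hO, hne, h⟩ := stepB G a h1 (fun X hX => hX.1)
  refine hX.2 ((stepC G hG a hF hO hne h A).trans ?_)
  exact jn_TR (hP.trans (TR_jn_right _ _)) (TR_jn_left _ _)

theorem f_le (a : Aut) (A : Rl) : TR (a.f A) A := g_le a.symm A

/-- every automorphism is the identity -/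
theorem f_eq (a : Aut) (A : Rl) : TE (a.f A) A :=
  ⟨f_le a A, (a.fg2 A).trans (a.f_mono (g_le a A))⟩

end Vale.Agent.P327
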